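import Mathlib

namespace Vale.Agent.P181

/-- Set partitions of `Ω` into blocks of size `k`: equivalence relations on `Ω`
all of whose classes have exactly `k` elements. -/
@[ext]
structure BlockPartition (Ω : Type*) (k : ℕ) where
  rel : Setoid Ω
  card_block : ∀ x, Nat.card {y // rel x y} = k

/-- Permutations of `Ω` act on set partitions: `x, y` lie in one block of `g • P`
iff `g⁻¹ x, g⁻¹ y` lie in one block of `P`. -/
instance blockPartitionMulAction (Ω : Type*) (k : ℕ) :
    MulAction (Equiv.Perm Ω) (BlockPartition Ω k) where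
  smul g P := ⟨P.rel.comap (g⁻¹ : Equiv.Perm Ω), fun x =>
    (Nat.card_congr ((g⁻¹ : Equiv.Perm Ω).subtypeEquiv (fun _ => Iff.rfl))).trans
      (P.card_block ((g⁻¹ : Equiv.Perm Ω) x))⟩
  one_smul P := BlockPartition.ext (Setoid.ext fun _ _ => Iff.rfl)
  mul_smul g h P := BlockPartition.ext (Setoid.ext fun _ _ => by
    simp only [Setoid.comap_rel, mul_inv_rev, Equiv.Perm.mul_apply])

/-- Two set partitions are transversal if every block of the first meets every block of the
second in exactly one point. -/
def Transversal {Ω : Type*} {k l : ℕ} (P : BlockPartition Ω k) (Q : BlockPartition Ω l) : Prop :=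
  ∀ x y, ∃! z, P.rel x z ∧ Q.rel y z

end Vale.Agent.P181
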