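import Mathlib

namespace Vale.Agent.P181

open Classical

theorem finite_setoid (α : Type*) [Finite α] : Finite (Setoid α) :=
  Finite.of_injective (fun s : Setoid α => (s.r : α → α → Prop)) (by
    intro s t h
    exact Setoid.ext (fun a b => Iff.of_eq (congrFun (congrFun h a) b)))

noncomputable instance fintypeSetoid (α : Type*) [Finite α] : Fintype (Setoid α) :=
  haveI := finite_setoid α
  Fintype.ofFinite _

section Forest

variable {T : Type*} [Fintype T] [LinearOrder T]

theorem prod_one_add_sum (π : Setoid T) :
    ∏ x : T, (1 + ∑ y : T, (if y < x ∧ π y x then (-1 : ℂ) else 0)) = if π = ⊥ then 1 else 0 := by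
  split_ifs with h
  · subst h
    apply Finset.prod_eq_one
    intro x _
    have h0 : ∀ y : T, (if y < x ∧ (⊥ : Setoid T) y x then (-1 : ℂ) else 0) = 0 := by
      intro y
      rw [if_neg]
      rintro ⟨h1, h2⟩
      have h3 : y = x := h2
      exact absurd h3 (ne_of_lt h1)
    rw [Finset.sum_eq_zero (fun y _ => h0 y), add_zero]
  · have hex : ∃ x, ∃ y, y < x ∧ π y x := by
      by_contra hcon
      push Not at hcon
      apply h
      rw [eq_bot_iff]
      intro x y hxy
      show x = y
      rcases lt_trichotomy x y with hlt | heq | hgt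
      · exact absurd hxy (hcon y x hlt)
      · exact heq
      · exact absurd (π.symm' hxy) (hcon x y hgt)
    set S : Finset T := Finset.univ.filter (fun x => ∃ y, y < x ∧ π y x) with hS
    have hne : S.Nonempty := by
      obtain ⟨x, hx⟩ := hex
      exact ⟨x, by simp [hS, hx]⟩
    set x0 := S.min' hne with hx0
    have hx0mem : x0 ∈ S := Finset.min'_mem S hne
    have hx0' : ∃ y, y < x0 ∧ π y x0 := by
      have := hx0mem
      simp only [hS, Finset.mem_filter, Finset.mem_univ, true_and] at this
      exact this
    obtain ⟨y0, hy0lt, hy0⟩ := hx0'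
    apply Finset.prod_eq_zero (Finset.mem_univ x0)
    have hsum : ∑ y : T, (if y < x0 ∧ π y x0 then (-1 : ℂ) else 0) = -1 := by
      rw [Finset.sum_eq_single y0]
      · rw [if_pos ⟨hy0lt, hy0⟩]
      · intro y _ hyne
        rw [if_neg]
        rintro ⟨hylt, hy⟩
        have hrel : π y y0 := π.trans' hy (π.symm' hy0)
        rcases lt_or_gt_of_ne hyne with hlt | hgt
        · have hmem : y0 ∈ S := by
            simp only [hS, Finset.mem_filter, Finset.mem_univ, true_and]
            exact ⟨y, hlt, hrel⟩
          have := Finset.min'_le S y0 hmem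
          exact absurd hy0lt (not_lt.mpr this)
        · have hmem : y ∈ S := by
            simp only [hS, Finset.mem_filter, Finset.mem_univ, true_and]
            exact ⟨y0, hgt, π.symm' hrel⟩
          have := Finset.min'_le S y hmem
          exact absurd hylt (not_lt.mpr this)
      · intro hh
        exact absurd (Finset.mem_univ y0) hh
    rw [hsum]
    ring

noncomputable def wt (π : Setoid T) (x : T) : Option T → ℂ
  | none => 1
  | some y => if y < x ∧ π y x then -1 else 0

def Adm (g : T → Option T) : Prop := ∀ x y, g x = some y → y < x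

def Below (g : T → Option T) (s : Setoid T) : Prop := ∀ x y, g x = some y → s y x

noncomputable def sg (g : T → Option T) : ℂ := ∏ x, (if g x = none then 1 else -1)

theorem sg_ne_zero (g : T → Option T) : sg g ≠ 0 := by
  unfold sg
  rw [Finset.prod_ne_zero_iff]
  intro x _
  split_ifs <;> norm_num

theorem prod_wt (π : Setoid T) (g : T → Option T) :
    ∏ x, wt π x (g x) = if Adm g ∧ Below g π then sg g else 0 := by
  split_ifs with h
  · unfold sg
    apply Finset.prod_congr rfl
    intro x _
    rcases hgx : g x with _ | y
    · simp [wt]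
    · simp [wt, h.1 x y hgx, h.2 x y hgx]
  · have : ∃ x y, g x = some y ∧ ¬ (y < x ∧ π y x) := by
      by_contra hcon
      push Not at hcon
      exact h ⟨fun x y hxy => (hcon x y hxy).1, fun x y hxy => (hcon x y hxy).2⟩
    obtain ⟨x, y, hgx, hn⟩ := this
    apply Finset.prod_eq_zero (Finset.mem_univ x)
    rw [hgx]
    simp only [wt]
    rw [if_neg hn]

theorem bot_indicator (π : Setoid T) :
    (if π = ⊥ then (1 : ℂ) else 0) =
      ∑ g : T → Option T, if Adm g ∧ Below g π then sg g else 0 := by
  rw [← prod_one_add_sum]
  have h1 : ∀ x, (1 + ∑ y : T, (if y < x ∧ π y x then (-1 : ℂ) else 0)) =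
      ∑ o : Option T, wt π x o := by
    intro x
    rw [Fintype.sum_option]
    rfl
  simp_rw [h1]
  rw [Fintype.prod_sum]
  exact Finset.sum_congr rfl (fun g _ => prod_wt π g)

def comp (g : T → Option T) : Setoid T where
  r x y := ∀ s : Setoid T, Below g s → s x y
  iseqv := ⟨fun x s _ => s.refl' x, fun h s hs => s.symm' (h s hs),
    fun h1 h2 s hs => s.trans' (h1 s hs) (h2 s hs)⟩

theorem below_comp (g : T → Option T) : Below g (comp g) :=
  fun x y hxy s hs => hs x y hxy

theorem below_iff (g : T → Option T) (s : Setoid T) : Below g s ↔ comp g ≤ s := by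
  constructor
  · intro h x y hxy
    exact hxy s h
  · intro h x y hxy
    exact h (below_comp g x y hxy)

inductive Reach (g : T → Option T) (x : T) : T → Prop
  | refl : Reach g x x
  | step {y y' : T} : g y = some y' → Reach g x y' → Reach g x y

theorem reach_le {g : T → Option T} (hg : Adm g) {x y : T} (h : Reach g x y) : x ≤ y := by
  induction h with
  | refl => exact le_refl _
  | step h1 _ ih => exact le_trans ih (le_of_lt (hg _ _ h1))

theorem reach_step_iff {g : T → Option T} {x y y' : T} (hx : g x = none) (hy : g y = some y') :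
    Reach g x y ↔ Reach g x y' := by
  constructor
  · intro h
    cases h with
    | refl => rw [hx] at hy; exact absurd hy (by simp)
    | step h1 h2 =>
      rw [hy] at h1
      have := Option.some.inj h1
      rw [this]
      exact h2
  · intro h
    exact Reach.step hy h

theorem ne_none_iff {g : T → Option T} (hg : Adm g) (x : T) :
    g x ≠ none ↔ ∃ y, y < x ∧ comp g y x := by
  constructor
  · intro h
    obtain ⟨y, hy⟩ := Option.ne_none_iff_exists'.mp h
    exact ⟨y, hg x y hy, below_comp g x y hy⟩
  · rintro ⟨y, hlt, hy⟩ hx
    have hb : Below g (Setoid.ker (fun z => Reach g x z)) := by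
      intro u v huv
      show Reach g x v = Reach g x u
      exact propext (reach_step_iff hx huv).symm
    have h1 : Reach g x y = Reach g x x := hy _ hb
    have h2 : Reach g x y := by rw [h1]; exact Reach.refl
    exact absurd hlt (not_lt.mpr (reach_le hg h2))

theorem sg_eq_of_comp_eq {g g' : T → Option T} (hg : Adm g) (hg' : Adm g')
    (h : comp g = comp g') : sg g = sg g' := by
  unfold sg
  apply Finset.prod_congr rfl
  intro x _
  have h1 := ne_none_iff hg x
  have h2 := ne_none_iff hg' x
  rw [h] at h1
  have h3 : g x ≠ none ↔ g' x ≠ none := h1.trans h2.symm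
  by_cases hx : g x = none
  · have : g' x = none := by
      by_contra hc
      exact (h3.mpr hc) hx
    rw [if_pos hx, if_pos this]
  · rw [if_neg hx, if_neg (h3.mp hx)]

theorem exists_forest (z : Setoid T) : ∃ g : T → Option T, Adm g ∧ comp g = z := by
  have hne : ∀ x : T, (Finset.univ.filter (fun y => z x y)).Nonempty :=
    fun x => ⟨x, by simp [z.refl' x]⟩
  set m : T → T := fun x => (Finset.univ.filter (fun y => z x y)).min' (hne x) with hm
  have hmrel : ∀ x, z x (m x) := by
    intro x
    have := Finset.min'_mem _ (hne x)
    simp only [Finset.mem_filter, Finset.mem_univ, true_and] at this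
    exact this
  have hmle : ∀ x, m x ≤ x := by
    intro x
    apply Finset.min'_le
    simp [z.refl' x]
  have hmeq : ∀ x y, z x y → m x = m y := by
    intro x y hxy
    have : (Finset.univ.filter (fun w => z x w)) = (Finset.univ.filter (fun w => z y w)) := by
      ext w
      simp only [Finset.mem_filter, Finset.mem_univ, true_and]
      exact ⟨fun h => z.trans' (z.symm' hxy) h, fun h => z.trans' hxy h⟩
    simp only [hm]
    congr 1
  refine ⟨fun x => if m x < x then some (m x) else none, ?_, ?_⟩
  · intro x y hxy
    by_cases hlt : m x < x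
    · simp only [if_pos hlt] at hxy
      have := Option.some.inj hxy
      rw [← this]
      exact hlt
    · simp only [if_neg hlt] at hxy
      exact absurd hxy (by simp)
  · apply le_antisymm
    · rw [← below_iff]
      intro x y hxy
      by_cases hlt : m x < x
      · simp only [if_pos hlt] at hxy
        have := Option.some.inj hxy
        rw [← this]
        exact z.symm' (hmrel x)
      · simp only [if_neg hlt] at hxy
        exact absurd hxy (by simp)
    · intro x y hxy s hs
      have key : ∀ w, s (m w) w := by
        intro w
        by_cases hlt : m w < w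
        · exact hs w (m w) (by simp [hlt])
        · have : m w = w := le_antisymm (hmle w) (not_lt.mp hlt)
          rw [this]
      have h1 := key x
      have h2 := key y
      rw [hmeq x y hxy] at h1
      exact s.trans' (s.symm' h1) h2

theorem forest_sum_zero (Φ : Setoid T → ℂ) (Q : Setoid T)
    (h : ∑ P : Setoid T, (if P ⊓ Q = ⊥ then Φ P else 0) = 0) :
    ∑ g : T → Option T, (if Adm g ∧ Below g Q then
      sg g * ∑ P : Setoid T, (if Below g P then Φ P else 0) else 0) = 0 := by
  refine Eq.trans ?_ h
  have h1 : ∀ P : Setoid T, (if P ⊓ Q = ⊥ then Φ P else 0) =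
      ∑ g : T → Option T, (if Adm g ∧ Below g Q then sg g * (if Below g P then Φ P else 0)
        else 0) := by
    intro P
    have h2 : (if P ⊓ Q = ⊥ then Φ P else 0) = (if P ⊓ Q = ⊥ then (1 : ℂ) else 0) * Φ P := by
      split_ifs <;> simp
    rw [h2, bot_indicator, Finset.sum_mul]
    apply Finset.sum_congr rfl
    intro g _
    have h3 : Below g (P ⊓ Q) ↔ Below g P ∧ Below g Q :=
      ⟨fun hh => ⟨fun x y hxy => (hh x y hxy).1, fun x y hxy => (hh x y hxy).2⟩,
        fun hh x y hxy => ⟨hh.1 x y hxy, hh.2 x y hxy⟩⟩
    by_cases ha : Adm g <;> by_cases hP : Below g P <;> by_cases hQ : Below g Q <;>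
      simp [ha, hP, hQ, h3]
  rw [Finset.sum_congr rfl (fun P _ => h1 P), Finset.sum_comm]
  apply Finset.sum_congr rfl
  intro g _
  split_ifs
  · rw [Finset.mul_sum]
  · simp

theorem partition_matrix_injective_aux (Φ : Setoid T → ℂ)
    (h : ∀ Q : Setoid T, ∑ P : Setoid T, (if P ⊓ Q = ⊥ then Φ P else 0) = 0) :
    ∀ P, Φ P = 0 := by
  have := finite_setoid T
  set V : (T → Option T) → ℂ := fun g => ∑ P : Setoid T, (if Below g P then Φ P else 0) with hV
  have hVcomp : ∀ g g' : T → Option T, comp g = comp g' → V g = V g' := by
    intro g g' hgg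
    simp only [hV]
    apply Finset.sum_congr rfl
    intro P _
    simp only [below_iff, hgg]
  have step1 : ∀ z : Setoid T, ∀ g : T → Option T, Adm g → comp g = z → V g = 0 := by
    intro z
    induction z using (wellFounded_lt (α := Setoid T)).induction with
    | _ z ih =>
      intro g0 hg0 hcomp
      have hz := forest_sum_zero Φ z (h z)
      have hterm : ∀ g : T → Option T, (if Adm g ∧ Below g z then
          sg g * ∑ P : Setoid T, (if Below g P then Φ P else 0) else 0) =
          (if Adm g ∧ comp g = z then sg g0 * V g0 else 0) := by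
        intro g
        by_cases ha : Adm g
        · by_cases hb : Below g z
          · have hle : comp g ≤ z := (below_iff g z).mp hb
            rcases eq_or_lt_of_le hle with heq | hlt
            · rw [if_pos ⟨ha, hb⟩, if_pos ⟨ha, heq⟩]
              rw [sg_eq_of_comp_eq ha hg0 (heq.trans hcomp.symm)]
              congr 1
              exact hVcomp g g0 (heq.trans hcomp.symm)
            · rw [if_pos ⟨ha, hb⟩, if_neg (fun hh => absurd hh.2 (ne_of_lt hlt))]
              have := ih (comp g) hlt g ha rfl
              simp only [hV] at this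
              rw [this, mul_zero]
          · rw [if_neg (fun hh => hb hh.2), if_neg]
            rintro ⟨_, heq⟩
            exact hb ((below_iff g z).mpr (le_of_eq heq))
        · rw [if_neg (fun hh => ha hh.1), if_neg (fun hh => ha hh.1)]
      simp_rw [hterm] at hz
      rw [← Finset.sum_filter, Finset.sum_const, nsmul_eq_mul] at hz
      have hcard : ((Finset.univ.filter (fun g : T → Option T => Adm g ∧ comp g = z)).card : ℂ)
          ≠ 0 := by
        rw [Nat.cast_ne_zero]
        apply Finset.card_ne_zero_of_mem (a := g0)
        simp [hg0, hcomp]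
      rcases mul_eq_zero.mp hz with h1 | h1
      · exact absurd h1 hcard
      · rcases mul_eq_zero.mp h1 with h2 | h2
        · exact absurd h2 (sg_ne_zero g0)
        · exact h2
  intro P0
  induction P0 using (wellFounded_gt (α := Setoid T)).induction with
  | _ P0 ih =>
    obtain ⟨g0, hg0, hcomp⟩ := exists_forest P0
    have h0 := step1 P0 g0 hg0 hcomp
    simp only [hV] at h0
    rw [Finset.sum_eq_single P0] at h0
    · rw [if_pos ((below_iff g0 P0).mpr (le_of_eq hcomp))] at h0
      exact h0
    · intro P _ hne
      by_cases hb : Below g0 P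
      · rw [if_pos hb]
        have hle : P0 ≤ P := hcomp ▸ (below_iff g0 P).mp hb
        exact ih P (lt_of_le_of_ne hle (Ne.symm hne))
      · rw [if_neg hb]
    · intro hh
      exact absurd (Finset.mem_univ P0) hh

end Forest

theorem partition_matrix_injective {T : Type*} [Fintype T] (Φ : Setoid T → ℂ)
    (h : ∀ Q : Setoid T, ∑ P : Setoid T, (if P ⊓ Q = ⊥ then Φ P else 0) = 0) :
    ∀ P, Φ P = 0 := by
  let _ : LinearOrder T := LinearOrder.lift' (Fintype.equivFin T) (Equiv.injective _)
  exact partition_matrix_injective_aux Φ h

end Vale.Agent.P181
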