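import Mathlib
import Vale.Agent.P181.Defs
import Vale.Agent.P181.Forest

namespace Vale.Agent.P181

open Classical

theorem exists_perm_of_card_fiber_eq {Ω ι : Type*} [Fintype Ω] (f g : Ω → ι)
    (h : ∀ i, Nat.card {x // f x = i} = Nat.card {x // g x = i}) :
    ∃ σ : Equiv.Perm Ω, ∀ x, g (σ x) = f x := by
  let e : ∀ i, {x // f x = i} ≃ {x // g x = i} := fun i =>
    Fintype.equivOfCardEq (by
      have := h i
      rwa [Nat.card_eq_fintype_card, Nat.card_eq_fintype_card] at this)
  refine ⟨(Equiv.sigmaFiberEquiv f).symm.trans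
    ((Equiv.sigmaCongrRight e).trans (Equiv.sigmaFiberEquiv g)), fun x => ?_⟩
  exact (e (f x) ⟨x, rfl⟩).2

theorem exists_perm_extending {S A : Type*} [Finite A] (u v : S → A)
    (hu : Function.Injective u) (hv : Function.Injective v) :
    ∃ π : Equiv.Perm A, ∀ s, π (u s) = v s := by
  let e : {x // x ∈ Set.range u} ≃ {x // x ∈ Set.range v} :=
    (Equiv.ofInjective u hu).symm.trans (Equiv.ofInjective v hv)
  refine ⟨e.extendSubtype, fun s => ?_⟩
  rw [Equiv.extendSubtype_apply_of_mem e (u s) ⟨s, rfl⟩]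
  have : (Equiv.ofInjective u hu).symm ⟨u s, ⟨s, rfl⟩⟩ = s :=
    Equiv.ofInjective_symm_apply hu s
  simp only [e, Equiv.trans_apply, this, Equiv.ofInjective_apply]

theorem exists_perm_of_ker_eq {S A : Type*} [Finite A] (r r' : S → A)
    (h : ∀ x y, r x = r y ↔ r' x = r' y) : ∃ π : Equiv.Perm A, ∀ s, π (r s) = r' s := by
  let u : Quotient (Setoid.ker r) → A := Quotient.lift r (fun _ _ hab => hab)
  let v : Quotient (Setoid.ker r) → A := Quotient.lift r' (fun a b hab => (h a b).mp hab)
  have hu : Function.Injective u := by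
    intro x y
    induction x using Quotient.inductionOn
    induction y using Quotient.inductionOn
    intro hxy
    exact Quotient.sound hxy
  have hv : Function.Injective v := by
    intro x y
    induction x using Quotient.inductionOn with | _ x => ?_
    induction y using Quotient.inductionOn with | _ y => ?_
    intro hxy
    exact Quotient.sound ((h x y).mpr hxy)
  obtain ⟨π, hπ⟩ := exists_perm_extending u v hu hv
  exact ⟨π, fun s => hπ (Quotient.mk _ s)⟩

theorem exists_equiv_extending {S Ω A : Type*} [Finite A] (e0 : Ω ≃ A) (u : S → Ω) (v : S → A)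
    (hu : Function.Injective u) (hv : Function.Injective v) :
    ∃ E : Ω ≃ A, ∀ s, E (u s) = v s := by
  obtain ⟨π, hπ⟩ := exists_perm_extending (fun s => e0 (u s)) v (e0.injective.comp hu) hv
  exact ⟨e0.trans π, fun s => hπ s⟩

theorem exists_labelling {Ω : Type*} [Fintype Ω] {a b : ℕ} (hb : 0 < b)
    (hΩ : Fintype.card Ω = a * b) (P : BlockPartition Ω b) :
    ∃ p : Ω → Fin a, (∀ x y, p x = p y ↔ P.rel x y) ∧ Function.Surjective p := by
  have hcard : Fintype.card (Quotient P.rel) = a := by
    have h1 : Fintype.card Ω = ∑ c : Quotient P.rel,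
        Fintype.card {x // (Quotient.mk P.rel x) = c} := by
      rw [← Fintype.card_sigma]
      exact Fintype.card_congr (Equiv.sigmaFiberEquiv (Quotient.mk P.rel)).symm
    have h2 : ∀ c : Quotient P.rel, Fintype.card {x // (Quotient.mk P.rel x) = c} = b := by
      intro c
      induction c using Quotient.inductionOn with | _ x0 => ?_
      refine Eq.trans ?_ (P.card_block x0)
      rw [Nat.card_eq_fintype_card]
      apply Fintype.card_congr
      exact Equiv.subtypeEquivRight (fun x =>
        ⟨fun hx => P.rel.symm' (Quotient.exact hx), fun hx => Quotient.sound (P.rel.symm' hx)⟩)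
    rw [Finset.sum_congr rfl (fun c _ => h2 c), Finset.sum_const, Finset.card_univ, hΩ,
      smul_eq_mul] at h1
    exact (Nat.eq_of_mul_eq_mul_right hb h1).symm
  let e : Quotient P.rel ≃ Fin a := Fintype.equivFinOfCardEq hcard
  refine ⟨fun x => e (Quotient.mk P.rel x), fun x y => ?_, ?_⟩
  · rw [e.apply_eq_iff_eq]
    exact ⟨fun hx => Quotient.exact hx, fun hx => Quotient.sound hx⟩
  · intro i
    obtain ⟨x, hx⟩ := Quotient.exists_rep (e.symm i)
    exact ⟨x, by simp [hx]⟩

theorem card_fiber_labelling {Ω : Type*} [Fintype Ω] {a b : ℕ} (P : BlockPartition Ω b)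
    (p : Ω → Fin a) (hp : ∀ x y, p x = p y ↔ P.rel x y) (hs : Function.Surjective p) (i : Fin a) :
    Nat.card {x // p x = i} = b := by
  obtain ⟨x0, rfl⟩ := hs i
  refine Eq.trans ?_ (P.card_block x0)
  apply Nat.card_congr
  exact Equiv.subtypeEquivRight (fun x => ⟨fun hx => (hp x0 x).mp hx.symm,
    fun hx => ((hp x0 x).mpr hx).symm⟩)

theorem exists_perm_fixing {Ω : Type*} [Fintype Ω] {a b : ℕ} (T : Finset Ω) (p p' : Ω → Fin a)
    (hp : ∀ i, Nat.card {x // p x = i} = b) (hp' : ∀ i, Nat.card {x // p' x = i} = b)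
    (hT : ∀ x ∈ T, p x = p' x) :
    ∃ σ : Equiv.Perm Ω, (∀ x ∈ T, σ x = x) ∧ ∀ x, p' (σ x) = p x := by
  let ph : (Ω → Fin a) → Ω → Ω ⊕ Fin a := fun r x => if x ∈ T then Sum.inl x else Sum.inr (r x)
  have hinl : ∀ (r : Ω → Fin a) (x t : Ω), ph r x = Sum.inl t ↔ (x ∈ T ∧ x = t) := by
    intro r x t
    by_cases hx : x ∈ T <;> simp [ph, hx]
  have hinr : ∀ (r : Ω → Fin a) (x : Ω) (i : Fin a), ph r x = Sum.inr i ↔ (x ∉ T ∧ r x = i) := by
    intro r x i
    by_cases hx : x ∈ T <;> simp [ph, hx]
  have hcount : ∀ (r : Ω → Fin a) (i : Fin a), Nat.card {x // r x = i} =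
      (Finset.univ.filter (fun x => x ∈ T ∧ r x = i)).card +
      Nat.card {x // ph r x = Sum.inr i} := by
    intro r i
    rw [Nat.card_eq_fintype_card, Nat.card_eq_fintype_card, Fintype.card_subtype,
      Fintype.card_subtype]
    rw [← Finset.card_filter_add_card_filter_not (s := Finset.univ.filter (fun x => r x = i))
      (fun x => x ∈ T)]
    rw [Finset.filter_filter, Finset.filter_filter]
    congr 2
    · ext x; simp [and_comm]
    · ext x; simp [hinr, and_comm]
  have hfib : ∀ c, Nat.card {x // ph p x = c} = Nat.card {x // ph p' x = c} := by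
    intro c
    rcases c with t | i
    · apply Nat.card_congr
      exact Equiv.subtypeEquivRight (fun x => by rw [hinl, hinl])
    · have h1 := hcount p i
      have h2 := hcount p' i
      rw [hp i] at h1
      rw [hp' i] at h2
      have h3 : (Finset.univ.filter (fun x => x ∈ T ∧ p x = i)) =
          (Finset.univ.filter (fun x => x ∈ T ∧ p' x = i)) := by
        ext x
        simp only [Finset.mem_filter, Finset.mem_univ, true_and]
        constructor
        · rintro ⟨hx, hpx⟩; exact ⟨hx, (hT x hx) ▸ hpx⟩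
        · rintro ⟨hx, hpx⟩; exact ⟨hx, (hT x hx).symm ▸ hpx⟩
      rw [h3] at h1
      omega
  obtain ⟨σ, hσ⟩ := exists_perm_of_card_fiber_eq (ph p) (ph p') hfib
  have hfix : ∀ x ∈ T, σ x = x := by
    intro x hx
    have h1 : ph p x = Sum.inl x := (hinl p x x).mpr ⟨hx, rfl⟩
    have h2 := hσ x
    rw [h1] at h2
    exact ((hinl p' (σ x) x).mp h2).2
  refine ⟨σ, hfix, fun x => ?_⟩
  by_cases hx : x ∈ T
  · rw [hfix x hx, hT x hx]
  · have h1 : ph p x = Sum.inr (p x) := (hinr p x (p x)).mpr ⟨hx, rfl⟩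
    have h2 := hσ x
    rw [h1] at h2
    exact ((hinr p' (σ x) (p x)).mp h2).2

end Vale.Agent.P181
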