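import Mathlib
import Vale.Agent.P181.Comb

namespace Vale.Agent.P181

open Classical

instance finiteBlockPartition (Ω : Type*) [Finite Ω] (k : ℕ) : Finite (BlockPartition Ω k) :=
  haveI := finite_setoid Ω
  Finite.of_injective (fun P : BlockPartition Ω k => P.rel) (fun _ _ h => BlockPartition.ext h)

noncomputable instance fintypeBlockPartition (Ω : Type*) [Finite Ω] (k : ℕ) :
    Fintype (BlockPartition Ω k) := Fintype.ofFinite _

def Bij {Ω : Type*} {a b : ℕ} (q : Ω → Fin b) (p : Ω → Fin a) : Prop :=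
  Function.Bijective (fun x => (q x, p x))

def ofFun {Ω ι : Type*} {k : ℕ} (p : Ω → ι) (hp : ∀ i, Nat.card {x // p x = i} = k) :
    BlockPartition Ω k :=
  ⟨Setoid.ker p, fun x =>
    (Nat.card_congr (Equiv.subtypeEquivRight fun _ => eq_comm)).trans (hp (p x))⟩

theorem card_fiber_snd {Ω : Type*} {a b : ℕ} {q : Ω → Fin b} {p : Ω → Fin a} (h : Bij q p)
    (i : Fin a) : Nat.card {x // p x = i} = b := by
  let E : Ω ≃ Fin b × Fin a := Equiv.ofBijective _ h
  let e1 : {x // p x = i} ≃ {z : Fin b × Fin a // z.2 = i} := E.subtypeEquiv (fun _ => Iff.rfl)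
  let e2 : {z : Fin b × Fin a // z.2 = i} ≃ Fin b :=
    ⟨fun z => z.1.1, fun j => ⟨(j, i), rfl⟩, by rintro ⟨⟨j, i'⟩, rfl⟩; rfl, fun _ => rfl⟩
  rw [Nat.card_congr (e1.trans e2), Nat.card_eq_fintype_card, Fintype.card_fin]

theorem card_fiber_fst {Ω : Type*} {a b : ℕ} {q : Ω → Fin b} {p : Ω → Fin a} (h : Bij q p)
    (j : Fin b) : Nat.card {x // q x = j} = a := by
  let E : Ω ≃ Fin b × Fin a := Equiv.ofBijective _ h
  let e1 : {x // q x = j} ≃ {z : Fin b × Fin a // z.1 = j} := E.subtypeEquiv (fun _ => Iff.rfl)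
  let e2 : {z : Fin b × Fin a // z.1 = j} ≃ Fin a :=
    ⟨fun z => z.1.2, fun i => ⟨(j, i), rfl⟩, by rintro ⟨⟨j', i⟩, rfl⟩; rfl, fun _ => rfl⟩
  rw [Nat.card_congr (e1.trans e2), Nat.card_eq_fintype_card, Fintype.card_fin]

theorem transversal_of_bij {Ω : Type*} {a b : ℕ} {q : Ω → Fin b} {p : Ω → Fin a} (h : Bij q p)
    (hp : ∀ i, Nat.card {x // p x = i} = b) (hq : ∀ j, Nat.card {x // q x = j} = a) :
    Transversal (ofFun p hp) (ofFun q hq) := by
  intro x y
  obtain ⟨z, hz⟩ := h.2 (q y, p x)
  have hz1 : q z = q y := congrArg Prod.fst hz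
  have hz2 : p z = p x := congrArg Prod.snd hz
  refine ⟨z, ⟨hz2.symm, hz1.symm⟩, ?_⟩
  rintro z' ⟨h1, h2⟩
  apply h.1
  have h1' : p x = p z' := h1
  have h2' : q y = q z' := h2
  show (q z', p z') = (q z, p z)
  rw [hz1, hz2, h1', h2']

theorem bij_of_transversal {Ω : Type*} [Fintype Ω] {a b : ℕ} (hΩ : Fintype.card Ω = a * b)
    (P : BlockPartition Ω b) (Q : BlockPartition Ω a) (q : Ω → Fin b) (p : Ω → Fin a)
    (hp : Setoid.ker p = P.rel) (hq : Setoid.ker q = Q.rel) (h : Transversal P Q) : Bij q p := by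
  unfold Bij
  rw [Fintype.bijective_iff_injective_and_card]
  refine ⟨?_, by simp [hΩ, mul_comm]⟩
  intro x y hxy
  have h1 : q x = q y := congrArg Prod.fst hxy
  have h2 : p x = p y := congrArg Prod.snd hxy
  obtain ⟨z, _, hz⟩ := h x x
  have hx : x = z := hz x ⟨P.rel.refl' x, Q.rel.refl' x⟩
  have hy : y = z := hz y ⟨by rw [← hp]; exact h2, by rw [← hq]; exact h1⟩
  rw [hx, hy]

theorem card_labellings {Ω : Type*} [Fintype Ω] {a b : ℕ} (hb : 0 < b)
    (hΩ : Fintype.card Ω = a * b) (P : BlockPartition Ω b) :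
    (Finset.univ.filter (fun p : Ω → Fin a => Setoid.ker p = P.rel)).card = a.factorial := by
  obtain ⟨l, hl, hs⟩ := exists_labelling hb hΩ P
  have : (Finset.univ : Finset (Equiv.Perm (Fin a))).card =
      (Finset.univ.filter (fun p : Ω → Fin a => Setoid.ker p = P.rel)).card := by
    apply Finset.card_bij (fun π _ => fun x => π (l x))
    · intro π _
      simp only [Finset.mem_filter, Finset.mem_univ, true_and]
      ext x y
      rw [← hl x y]
      exact π.apply_eq_iff_eq
    · intro π _ π' _ h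
      ext i
      obtain ⟨x, rfl⟩ := hs i
      exact congrArg Fin.val (congrFun h x)
    · intro p hp
      simp only [Finset.mem_filter, Finset.mem_univ, true_and] at hp
      obtain ⟨π, hπ⟩ := exists_perm_of_ker_eq l p (fun x y => by
        rw [hl x y, ← hp]; rfl)
      exact ⟨π, Finset.mem_univ _, funext hπ⟩
  rw [← this, Finset.card_univ, Fintype.card_perm, Fintype.card_fin]

theorem stepA {Ω : Type*} [Fintype Ω] {a b : ℕ} (hb : 0 < b) (hΩ : Fintype.card Ω = a * b)
    (q : Ω → Fin b) (hq : ∀ j, Nat.card {x // q x = j} = a) (G : Setoid Ω → ℂ) :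
    ∑ p : Ω → Fin a, (if Bij q p then G (Setoid.ker p) else 0) =
      (a.factorial : ℂ) *
        ∑ P : BlockPartition Ω b, (if Transversal P (ofFun q hq) then G P.rel else 0) := by
  have h1 : ∀ p : Ω → Fin a, (if Bij q p then G (Setoid.ker p) else 0) =
      ∑ P : BlockPartition Ω b,
        (if Setoid.ker p = P.rel ∧ Transversal P (ofFun q hq) then G P.rel else 0) := by
    intro p
    by_cases hbij : Bij q p
    · rw [if_pos hbij, Finset.sum_eq_single (ofFun p (card_fiber_snd hbij))]
      · rw [if_pos ⟨rfl, transversal_of_bij hbij _ _⟩]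
        rfl
      · intro P _ hne
        rw [if_neg]
        rintro ⟨h2, _⟩
        exact hne (BlockPartition.ext h2.symm)
      · intro hh
        exact absurd (Finset.mem_univ _) hh
    · rw [if_neg hbij]
      symm
      apply Finset.sum_eq_zero
      intro P _
      rw [if_neg]
      rintro ⟨h2, h3⟩
      exact hbij (bij_of_transversal hΩ P (ofFun q hq) q p h2 rfl h3)
  rw [Finset.sum_congr rfl (fun p _ => h1 p), Finset.sum_comm, Finset.mul_sum]
  apply Finset.sum_congr rfl
  intro P _
  by_cases ht : Transversal P (ofFun q hq)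
  · simp only [ht, and_true, if_true]
    rw [← Finset.sum_filter, Finset.sum_const, card_labellings hb hΩ P, nsmul_eq_mul]
  · simp [ht]

theorem card_ext_le {Ω : Type*} [Fintype Ω] {a b : ℕ} (T : Finset Ω) (q : Ω → Fin b)
    (r r' : {x // x ∈ T} → Fin a)
    (hr : Function.Injective (fun t : {x // x ∈ T} => (q t.1, r t)))
    (hr' : Function.Injective (fun t : {x // x ∈ T} => (q t.1, r' t))) :
    (Finset.univ.filter (fun p : Ω → Fin a =>
      Bij q p ∧ (fun t : {x // x ∈ T} => p t.1) = r)).card ≤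
    (Finset.univ.filter (fun p : Ω → Fin a =>
      Bij q p ∧ (fun t : {x // x ∈ T} => p t.1) = r')).card := by
  have hex : ∀ j : Fin b, ∃ π : Equiv.Perm (Fin a),
      ∀ s : {t : {x // x ∈ T} // q t.1 = j}, π (r s.1) = r' s.1 := by
    intro j
    apply exists_perm_extending (fun s : {t : {x // x ∈ T} // q t.1 = j} => r s.1)
      (fun s => r' s.1)
    · intro s s' h
      apply Subtype.ext
      apply hr
      show (q s.1.1, r s.1) = (q s'.1.1, r s'.1)
      rw [s.2, s'.2]
      exact congrArg (Prod.mk j) h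
    · intro s s' h
      apply Subtype.ext
      apply hr'
      show (q s.1.1, r' s.1) = (q s'.1.1, r' s'.1)
      rw [s.2, s'.2]
      exact congrArg (Prod.mk j) h
  choose π hπ using hex
  apply Finset.card_le_card_of_injOn (fun p => fun x => π (q x) (p x))
  · intro p hp
    simp only [Finset.coe_filter, Finset.mem_univ, true_and, Set.mem_ofPred_eq] at hp ⊢
    obtain ⟨hb, hres⟩ := hp
    constructor
    · have : (fun x => (q x, π (q x) (p x))) =
          (Equiv.prodShear (Equiv.refl (Fin b)) π) ∘ (fun x => (q x, p x)) := by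
        funext x
        rfl
      unfold Bij
      rw [this]
      exact (Equiv.bijective _).comp hb
    · funext t
      have h1 : p t.1 = r t := congrFun hres t
      rw [h1]
      exact hπ (q t.1) ⟨t, rfl⟩
  · intro p _ p' _ h
    funext x
    exact (π (q x)).injective (congrFun h x)

theorem sum_restrict {Ω : Type*} [Fintype Ω] {a b : ℕ} (T : Finset Ω) (q : Ω → Fin b)
    (H : ({x // x ∈ T} → Fin a) → ℂ) :
    ∑ p : Ω → Fin a, (if Bij q p then H (fun t : {x // x ∈ T} => p t.1) else 0) =
      ∑ r : {x // x ∈ T} → Fin a, ((Finset.univ.filter (fun p : Ω → Fin a =>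
        Bij q p ∧ (fun t : {x // x ∈ T} => p t.1) = r)).card : ℂ) * H r := by
  have h1 : ∀ p : Ω → Fin a, (if Bij q p then H (fun t : {x // x ∈ T} => p t.1) else 0) =
      ∑ r : {x // x ∈ T} → Fin a,
        (if Bij q p ∧ (fun t : {x // x ∈ T} => p t.1) = r then H r else 0) := by
    intro p
    by_cases hb : Bij q p
    · simp [hb]
    · simp [hb]
  rw [Finset.sum_congr rfl (fun p _ => h1 p), Finset.sum_comm]
  apply Finset.sum_congr rfl
  intro r _
  rw [← Finset.sum_filter, Finset.sum_const, nsmul_eq_mul]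

theorem lemmaU {Ω : Type*} [Fintype Ω] {a b : ℕ} (hb : 0 < b) (hΩ : Fintype.card Ω = a * b)
    (T : Finset Ω) (f : BlockPartition Ω b → ℂ) (Ft : Setoid {x // x ∈ T} → ℂ)
    (hFt : ∀ P : BlockPartition Ω b, f P = Ft (P.rel.comap Subtype.val))
    (hker : ∀ Q : BlockPartition Ω a,
      ∑ P : BlockPartition Ω b, (if Transversal P Q then f P else 0) = 0)
    (κ : {x // x ∈ T} → Fin b) :
    ∑ r : {x // x ∈ T} → Fin a,
      (if Function.Injective (fun t => (κ t, r t)) then Ft (Setoid.ker r) else 0) = 0 := by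
  by_cases hadm : ∃ r0 : {x // x ∈ T} → Fin a, Function.Injective (fun t => (κ t, r0 t))
  · obtain ⟨r0, hr0⟩ := hadm
    let e0 : Ω ≃ Fin b × Fin a := Fintype.equivOfCardEq (by simp [hΩ, mul_comm])
    obtain ⟨E, hE⟩ := exists_equiv_extending e0 (Subtype.val : {x // x ∈ T} → Ω)
      (fun t => (κ t, r0 t)) Subtype.val_injective hr0
    set q : Ω → Fin b := fun x => (E x).1 with hqdef
    set p0 : Ω → Fin a := fun x => (E x).2 with hp0def
    have hbij0 : Bij q p0 := E.bijective
    have hq := card_fiber_fst hbij0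
    have hqκ : ∀ t : {x // x ∈ T}, q t.1 = κ t := fun t => congrArg Prod.fst (hE t)
    have hp0r : (fun t : {x // x ∈ T} => p0 t.1) = r0 := funext fun t => congrArg Prod.snd (hE t)
    have h1 := hker (ofFun q hq)
    simp_rw [hFt] at h1
    have h2 := stepA hb hΩ q hq (fun s => Ft (s.comap Subtype.val))
    rw [h1, mul_zero] at h2
    have h3 := sum_restrict T q (fun r : {x // x ∈ T} → Fin a => Ft (Setoid.ker r))
    have h4 : ∑ p : Ω → Fin a, (if Bij q p then Ft (Setoid.ker (fun t : {x // x ∈ T} => p t.1))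
        else 0) = 0 := by
      refine Eq.trans ?_ h2
      rfl
    rw [h4] at h3
    set n0 := (Finset.univ.filter (fun p : Ω → Fin a =>
        Bij q p ∧ (fun t : {x // x ∈ T} => p t.1) = r0)).card with hn0
    have hn0pos : (n0 : ℂ) ≠ 0 := by
      rw [Nat.cast_ne_zero]
      apply Finset.card_ne_zero_of_mem (a := p0)
      simp only [Finset.mem_filter, Finset.mem_univ, true_and]
      exact ⟨hbij0, hp0r⟩
    have hinj : ∀ r : {x // x ∈ T} → Fin a, (fun t : {x // x ∈ T} => (q t.1, r t)) =
        (fun t => (κ t, r t)) := fun r => funext fun t => by rw [hqκ t]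
    have h5 : ∀ r : {x // x ∈ T} → Fin a, ((Finset.univ.filter (fun p : Ω → Fin a =>
        Bij q p ∧ (fun t : {x // x ∈ T} => p t.1) = r)).card : ℂ) * Ft (Setoid.ker r) =
        (n0 : ℂ) * (if Function.Injective (fun t => (κ t, r t)) then Ft (Setoid.ker r) else 0) := by
      intro r
      by_cases hr : Function.Injective (fun t => (κ t, r t))
      · rw [if_pos hr]
        congr 2
        apply le_antisymm
        · exact card_ext_le T q r r0 (by rw [hinj]; exact hr) (by rw [hinj]; exact hr0)
        · exact card_ext_le T q r0 r (by rw [hinj]; exact hr0) (by rw [hinj]; exact hr)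
      · rw [if_neg hr, mul_zero]
        have : (Finset.univ.filter (fun p : Ω → Fin a =>
            Bij q p ∧ (fun t : {x // x ∈ T} => p t.1) = r)) = ∅ := by
          rw [Finset.filter_eq_empty_iff]
          rintro p _ ⟨hbp, hres⟩
          apply hr
          rw [← hinj, ← hres]
          exact hbp.1.comp Subtype.val_injective
        rw [this]
        simp
    rw [Finset.sum_congr rfl (fun r _ => h5 r), ← Finset.mul_sum] at h3
    rcases mul_eq_zero.mp h3.symm with h6 | h6
    · exact absurd h6 hn0pos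
    · exact h6
  · apply Finset.sum_eq_zero
    intro r _
    rw [if_neg]
    intro hr
    exact hadm ⟨r, hr⟩

end Vale.Agent.P181
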