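import Mathlib
import Vale.Agent.P181.Key

namespace Vale.Agent.P181

open Classical

theorem smul_rel {Ω : Type*} {k : ℕ} (g : Equiv.Perm Ω) (P : BlockPartition Ω k) (x y : Ω) :
    (g • P).rel x y ↔ P.rel (g⁻¹ x) (g⁻¹ y) := Iff.rfl

theorem lemmaW {Ω : Type*} [Fintype Ω] {a b : ℕ} (hb : 0 < b) (hΩ : Fintype.card Ω = a * b)
    (T : Finset Ω) (f : BlockPartition Ω b → ℂ)
    (hinv : ∀ g : Equiv.Perm Ω, (∀ x ∈ T, g x = x) → ∀ P, f (g • P) = f P)
    (P P' : BlockPartition Ω b)
    (hres : P.rel.comap (Subtype.val : {x // x ∈ T} → Ω) = P'.rel.comap Subtype.val) :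
    f P = f P' := by
  obtain ⟨p, hp, hps⟩ := exists_labelling hb hΩ P
  obtain ⟨p', hp', hps'⟩ := exists_labelling hb hΩ P'
  have hk : ∀ t t' : {x // x ∈ T}, p t.1 = p t'.1 ↔ p' t.1 = p' t'.1 := by
    intro t t'
    rw [hp, hp']
    have : (P.rel.comap (Subtype.val : {x // x ∈ T} → Ω)) t t' ↔
        (P'.rel.comap (Subtype.val : {x // x ∈ T} → Ω)) t t' := by rw [hres]
    exact this
  obtain ⟨π, hπ⟩ := exists_perm_of_ker_eq (fun t : {x // x ∈ T} => p t.1) (fun t => p' t.1) hk
  have hfib1 : ∀ i, Nat.card {x // π (p x) = i} = b := by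
    intro i
    rw [← card_fiber_labelling P p hp hps (π.symm i)]
    apply Nat.card_congr
    exact Equiv.subtypeEquivRight (fun x => by rw [Equiv.eq_symm_apply])
  obtain ⟨σ, hσfix, hσ⟩ := exists_perm_fixing T (fun x => π (p x)) p' hfib1
    (card_fiber_labelling P' p' hp' hps') (fun x hx => hπ ⟨x, hx⟩)
  have hPP : P = σ⁻¹ • P' := by
    apply BlockPartition.ext
    ext x y
    rw [smul_rel, inv_inv, ← hp', hσ, hσ, π.apply_eq_iff_eq, hp]
  rw [hPP]
  apply hinv
  intro x hx
  rw [Equiv.Perm.inv_eq_iff_eq]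
  exact (hσfix x hx).symm

theorem exists_ker_eq {τ : Type*} [Fintype τ] {b : ℕ} (Q : Setoid τ)
    (h : Fintype.card (Quotient Q) ≤ b) : ∃ κ : τ → Fin b, Setoid.ker κ = Q := by
  obtain ⟨ι⟩ := Function.Embedding.nonempty_of_card_le (α := Quotient Q) (β := Fin b)
    (by simpa using h)
  refine ⟨fun t => ι (Quotient.mk Q t), ?_⟩
  ext x y
  show ι (Quotient.mk Q x) = ι (Quotient.mk Q y) ↔ Q x y
  rw [ι.apply_eq_iff_eq]
  exact ⟨fun hx => Quotient.exact hx, fun hx => Quotient.sound hx⟩

theorem inf_ker_eq_bot_iff {τ α β : Type*} (r : τ → α) (κ : τ → β) :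
    Setoid.ker r ⊓ Setoid.ker κ = ⊥ ↔ Function.Injective (fun t => (κ t, r t)) := by
  constructor
  · intro h x y hxy
    have h1 : (Setoid.ker r ⊓ Setoid.ker κ) x y :=
      ⟨congrArg Prod.snd hxy, congrArg Prod.fst hxy⟩
    rw [h] at h1
    exact h1
  · intro h
    rw [eq_bot_iff]
    intro x y hxy
    exact h (Prod.ext hxy.2 hxy.1)

theorem sum_by_ker {τ : Type*} [Fintype τ] [DecidableEq τ] {a : ℕ} (Ft : Setoid τ → ℂ) (Q : Setoid τ) :
    ∑ P : Setoid τ, (if P ⊓ Q = ⊥ then
      ((Finset.univ.filter (fun r : τ → Fin a => Setoid.ker r = P)).card : ℂ) * Ft P else 0) =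
    ∑ r : τ → Fin a, (if Setoid.ker r ⊓ Q = ⊥ then Ft (Setoid.ker r) else 0) := by
  have h1 : ∀ r : τ → Fin a, (if Setoid.ker r ⊓ Q = ⊥ then Ft (Setoid.ker r) else 0) =
      ∑ P : Setoid τ, (if Setoid.ker r = P then (if P ⊓ Q = ⊥ then Ft P else 0) else 0) := by
    intro r
    simp
  rw [Finset.sum_congr rfl (fun r _ => h1 r), Finset.sum_comm]
  apply Finset.sum_congr rfl
  intro P _
  rw [← Finset.sum_filter, Finset.sum_const, nsmul_eq_mul]
  split_ifs <;> simp

theorem key_lemma {Ω : Type*} [Fintype Ω] {a b : ℕ} (hb : 0 < b) (hΩ : Fintype.card Ω = a * b)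
    (T : Finset Ω) (hT : T.card ≤ b + 1) (f : BlockPartition Ω b → ℂ)
    (hinv : ∀ g : Equiv.Perm Ω, (∀ x ∈ T, g x = x) → ∀ P, f (g • P) = f P)
    (hker : ∀ Q : BlockPartition Ω a,
      ∑ P : BlockPartition Ω b, (if Transversal P Q then f P else 0) = 0) :
    ∀ P, f P = 0 := by
  set res : BlockPartition Ω b → Setoid {x // x ∈ T} := fun P => P.rel.comap Subtype.val with hres
  set Ft : Setoid {x // x ∈ T} → ℂ := fun s =>
    if h : ∃ P : BlockPartition Ω b, res P = s then f h.choose else 0 with hFtdef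
  have hFt : ∀ P : BlockPartition Ω b, f P = Ft (P.rel.comap Subtype.val) := by
    intro P
    have hex : ∃ P' : BlockPartition Ω b, res P' = res P := ⟨P, rfl⟩
    have : Ft (res P) = f hex.choose := by
      simp only [hFtdef]
      rw [dif_pos hex]
    show f P = Ft (res P)
    rw [this]
    exact lemmaW hb hΩ T f hinv P hex.choose hex.choose_spec.symm
  set c : Setoid {x // x ∈ T} → ℂ := fun P =>
    ((Finset.univ.filter (fun r : {x // x ∈ T} → Fin a => Setoid.ker r = P)).card : ℂ) with hc
  set Φ : Setoid {x // x ∈ T} → ℂ := fun P => c P * Ft P with hΦ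
  have hU : ∀ κ : {x // x ∈ T} → Fin b,
      ∑ P : Setoid {x // x ∈ T}, (if P ⊓ Setoid.ker κ = ⊥ then Φ P else 0) = 0 := by
    intro κ
    have h1 := lemmaU hb hΩ T f Ft hFt hker κ
    have h2 := sum_by_ker (a := a) Ft (Setoid.ker κ)
    simp only [hΦ, hc]
    rw [h2]
    simp_rw [inf_ker_eq_bot_iff]
    exact h1
  have hΦ0 : ∀ P, Φ P = 0 := by
    rcases Nat.lt_or_ge T.card (b + 1) with hlt | hge
    · apply partition_matrix_injective
      intro Q
      have hcard : Fintype.card (Quotient Q) ≤ b := by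
        have h1 : Fintype.card (Quotient Q) ≤ Fintype.card {x // x ∈ T} :=
          Fintype.card_le_of_surjective (Quotient.mk Q) Quotient.mk_surjective
        rw [Fintype.card_coe] at h1
        omega
      obtain ⟨κ, rfl⟩ := exists_ker_eq Q hcard
      exact hU κ
    · have hTcard : T.card = b + 1 := le_antisymm hT hge
      have hQ : ∀ Q : Setoid {x // x ∈ T}, Q ≠ ⊥ →
          ∑ P : Setoid {x // x ∈ T}, (if P ⊓ Q = ⊥ then Φ P else 0) = 0 := by
        intro Q hQ
        have hcard : Fintype.card (Quotient Q) ≤ b := by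
          have h1 : Fintype.card (Quotient Q) < Fintype.card {x // x ∈ T} := by
            apply Fintype.card_lt_of_surjective_not_injective (Quotient.mk Q)
              Quotient.mk_surjective
            intro hinj
            apply hQ
            rw [eq_bot_iff]
            intro x y hxy
            exact hinj (Quotient.sound hxy)
          rw [Fintype.card_coe] at h1
          omega
        obtain ⟨κ, rfl⟩ := exists_ker_eq Q hcard
        exact hU κ
      have htop : Φ ⊤ = 0 := by
        have : Ft ⊤ = 0 := by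
          simp only [hFtdef]
          rw [dif_neg]
          rintro ⟨P, hP⟩
          have hne : T.Nonempty := by
            rw [← Finset.card_pos]; omega
          obtain ⟨x0, hx0⟩ := hne
          have hle : Fintype.card {x // x ∈ T} ≤ Fintype.card {y // P.rel x0 y} := by
            apply Fintype.card_le_of_injective
              (fun t : {x // x ∈ T} => (⟨t.1, by
                have h1 : (res P) ⟨x0, hx0⟩ t := by rw [hP]; trivial
                exact h1⟩ : {y // P.rel x0 y}))
            intro t t' htt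
            have h9 : t.1 = t'.1 := congrArg (fun z : {y // P.rel x0 y} => z.1) htt
            exact Subtype.ext h9
          have h2 := P.card_block x0
          rw [Nat.card_eq_fintype_card] at h2
          rw [Fintype.card_coe] at hle
          omega
        simp only [hΦ, this, mul_zero]
      set c0 := ∑ P : Setoid {x // x ∈ T}, (if P ⊓ ⊥ = ⊥ then Φ P else 0) with hc0
      have h2 : ∀ P, (fun P => Φ P - (if P = ⊤ then c0 else 0)) P = 0 := by
        apply partition_matrix_injective
        intro Q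
        have hsplit : ∀ P : Setoid {x // x ∈ T},
            (if P ⊓ Q = ⊥ then Φ P - (if P = ⊤ then c0 else 0) else 0) =
            (if P ⊓ Q = ⊥ then Φ P else 0) - (if P = ⊤ then (if Q = ⊥ then c0 else 0) else 0) := by
          intro P
          by_cases hP : P = ⊤
          · subst hP
            simp only [top_inf_eq, if_true]
            split_ifs <;> simp
          · simp [hP]
        rw [Finset.sum_congr rfl (fun P _ => hsplit P), Finset.sum_sub_distrib]
        rw [Finset.sum_ite_eq' Finset.univ ⊤, if_pos (Finset.mem_univ _)]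
        by_cases hQb : Q = ⊥
        · subst hQb
          simp [hc0]
        · rw [hQ Q hQb, if_neg hQb, sub_zero]
      have h3 := h2 ⊤
      simp only [if_true, htop, zero_sub, neg_eq_zero] at h3
      intro P
      have h4 := h2 P
      simp only [h3, ite_self, sub_zero] at h4
      exact h4
  intro P
  obtain ⟨p, hp, _⟩ := exists_labelling hb hΩ P
  have hcne : c (res P) ≠ 0 := by
    simp only [hc]
    rw [Nat.cast_ne_zero]
    apply Finset.card_ne_zero_of_mem (a := fun t : {x // x ∈ T} => p t.1)
    simp only [Finset.mem_filter, Finset.mem_univ, true_and]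
    ext t t'
    exact hp t.1 t'.1
  have h5 := hΦ0 (res P)
  simp only [hΦ] at h5
  rcases mul_eq_zero.mp h5 with h6 | h6
  · exact absurd h6 hcne
  · rw [hFt P]
    exact h6

end Vale.Agent.P181
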