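import Mathlib
import Vale.Agent.P181.Key2

namespace Vale.Agent.P181

open Classical

/-- Twice the number of classes is at most the number of points plus the number of points
forming a class on their own. -/
theorem two_mul_card_quotient_le {τ : Type*} [Fintype τ] (Q : Setoid τ) :
    2 * Fintype.card (Quotient Q) ≤
      (Finset.univ.filter (fun x : τ => ∀ y, Q x y → y = x)).card + Fintype.card τ := by
  set S := Finset.univ.filter (fun x : τ => ∀ y, Q x y → y = x) with hS
  have h1 : S.card = ∑ c : Quotient Q, (S.filter (fun x => Quotient.mk Q x = c)).card :=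
    Finset.card_eq_sum_card_fiberwise (fun x _ => Finset.mem_coe.mpr (Finset.mem_univ _))
  have h2 : (Finset.univ : Finset τ).card =
      ∑ c : Quotient Q, ((Finset.univ : Finset τ).filter (fun x => Quotient.mk Q x = c)).card :=
    Finset.card_eq_sum_card_fiberwise (fun x _ => Finset.mem_coe.mpr (Finset.mem_univ _))
  rw [← Finset.card_univ (α := τ), h1, h2, ← Finset.sum_add_distrib, ← Finset.card_univ,
    mul_comm, ← smul_eq_mul, ← Finset.sum_const]
  apply Finset.sum_le_sum
  intro c _
  obtain ⟨x, rfl⟩ := Quotient.exists_rep c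
  by_cases hx : ∀ y, Q x y → y = x
  · have e1 : 0 < (S.filter (fun z => Quotient.mk Q z = Quotient.mk Q x)).card := by
      apply Finset.card_pos.mpr
      exact ⟨x, by simp only [hS, Finset.mem_filter, Finset.mem_univ, true_and]; exact ⟨hx, trivial⟩⟩
    have e2 : 0 < ((Finset.univ : Finset τ).filter
        (fun z => Quotient.mk Q z = Quotient.mk Q x)).card := by
      apply Finset.card_pos.mpr
      exact ⟨x, by simp⟩
    omega
  · push Not at hx
    obtain ⟨y, hxy, hne⟩ := hx
    have e2 : 1 < ((Finset.univ : Finset τ).filter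
        (fun z => Quotient.mk Q z = Quotient.mk Q x)).card := by
      apply Finset.one_lt_card.mpr
      refine ⟨y, ?_, x, ?_, hne⟩
      · simp only [Finset.mem_filter, Finset.mem_univ, true_and]
        exact Quotient.sound (Setoid.symm' Q hxy)
      · simp
    omega

/-- Pulling equivalence relations back along a bijection. -/
def comapEquiv {τ : Type*} (e : τ ≃ τ) : Setoid τ ≃ Setoid τ where
  toFun s := s.comap e
  invFun s := s.comap e.symm
  left_inv s := by
    ext x y
    simp [Setoid.comap_rel]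
  right_inv s := by
    ext x y
    simp [Setoid.comap_rel]

theorem comap_eq_bot_iff {τ : Type*} (e : τ ≃ τ) (s : Setoid τ) : s.comap e = ⊥ ↔ s = ⊥ := by
  constructor
  · intro h
    rw [eq_bot_iff]
    intro x y hxy
    have h1 : (s.comap e) (e.symm x) (e.symm y) := by
      simpa [Setoid.comap_rel] using hxy
    rw [h] at h1
    exact e.symm.injective h1
  · intro h
    subst h
    rw [eq_bot_iff]
    intro x y hxy
    exact e.injective hxy

theorem card_ker_comap {τ : Type*} [Fintype τ] [DecidableEq τ] {a : ℕ} (e : τ ≃ τ) (P : Setoid τ) :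
    (Finset.univ.filter (fun r : τ → Fin a => Setoid.ker r = P.comap e)).card =
    (Finset.univ.filter (fun r : τ → Fin a => Setoid.ker r = P)).card := by
  apply Finset.card_bij (fun r _ => r ∘ e.symm)
  · intro r hr
    simp only [Finset.mem_filter, Finset.mem_univ, true_and] at hr ⊢
    ext x y
    have h1 : (Setoid.ker r) (e.symm x) (e.symm y) ↔ (P.comap e) (e.symm x) (e.symm y) := by
      rw [hr]
    simpa [Setoid.comap_rel, Setoid.ker_def] using h1
  · intro r _ r' _ h
    funext x
    have := congrFun h (e x)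
    simpa using this
  · intro r hr
    simp only [Finset.mem_filter, Finset.mem_univ, true_and] at hr
    refine ⟨r ∘ e, ?_, ?_⟩
    · simp only [Finset.mem_filter, Finset.mem_univ, true_and]
      rw [← hr]
      rfl
    · funext x
      simp

theorem exists_Ft {Ω : Type*} [Fintype Ω] {a b : ℕ} (hb : 0 < b) (hΩ : Fintype.card Ω = a * b)
    (T : Finset Ω) (f : BlockPartition Ω b → ℂ)
    (hinv : ∀ g : Equiv.Perm Ω, (∀ x ∈ T, g x = x) → ∀ P, f (g • P) = f P)
    (hker : ∀ Q : BlockPartition Ω a,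
      ∑ P : BlockPartition Ω b, (if Transversal P Q then f P else 0) = 0) :
    ∃ Ft : Setoid {x // x ∈ T} → ℂ,
      (∀ P : BlockPartition Ω b, f P = Ft (P.rel.comap Subtype.val)) ∧
      (∀ s, (¬ ∃ P : BlockPartition Ω b, P.rel.comap Subtype.val = s) → Ft s = 0) ∧
      (∀ κ : {x // x ∈ T} → Fin b,
        ∑ P : Setoid {x // x ∈ T}, (if P ⊓ Setoid.ker κ = ⊥ then
          ((Finset.univ.filter (fun r : {x // x ∈ T} → Fin a => Setoid.ker r = P)).card : ℂ) * Ft P
          else 0) = 0) := by
  set res : BlockPartition Ω b → Setoid {x // x ∈ T} := fun P => P.rel.comap Subtype.val with hres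
  set Ft : Setoid {x // x ∈ T} → ℂ := fun s =>
    if h : ∃ P : BlockPartition Ω b, res P = s then f h.choose else 0 with hFtdef
  have hFt : ∀ P : BlockPartition Ω b, f P = Ft (P.rel.comap Subtype.val) := by
    intro P
    have hex : ∃ P' : BlockPartition Ω b, res P' = res P := ⟨P, rfl⟩
    have : Ft (res P) = f hex.choose := by
      simp only [hFtdef]
      rw [dif_pos hex]
    show f P = Ft (res P)
    rw [this]
    exact lemmaW hb hΩ T f hinv P hex.choose hex.choose_spec.symm
  refine ⟨Ft, hFt, ?_, ?_⟩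
  · intro s hs
    simp only [hFtdef]
    rw [dif_neg hs]
  · intro κ
    have h1 := lemmaU hb hΩ T f Ft hFt hker κ
    have h2 := sum_by_ker (a := a) Ft (Setoid.ker κ)
    rw [h2]
    simp_rw [inf_ker_eq_bot_iff]
    exact h1


theorem key_lemma_ext {Ω : Type*} [Fintype Ω] {a b : ℕ} (hb : 0 < b)
    (hΩ : Fintype.card Ω = a * b)
    (T : Finset Ω) (f : BlockPartition Ω b → ℂ)
    (hinv : ∀ g : Equiv.Perm Ω, (∀ x ∈ T, g x = x) → ∀ P, f (g • P) = f P)
    (hker : ∀ Q : BlockPartition Ω a,
      ∑ P : BlockPartition Ω b, (if Transversal P Q then f P else 0) = 0)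
    (hne : ∃ P, f P ≠ 0) :
    ∃ A : Finset Ω, A ⊆ T ∧ 2 * b + 2 ≤ A.card + T.card ∧
      ∃ P, ∑ g ∈ Finset.univ.filter (fun g : Equiv.Perm Ω =>
        (∀ x ∈ T \ A, g x = x) ∧ (∀ x ∈ A, g x ∈ A)), f (g⁻¹ • P) ≠ 0 := by
  obtain ⟨Ft, hFt, hFt0, hU⟩ := exists_Ft hb hΩ T f hinv hker
  set c : Setoid {x // x ∈ T} → ℂ := fun P =>
    ((Finset.univ.filter (fun r : {x // x ∈ T} → Fin a => Setoid.ker r = P)).card : ℂ) with hc
  obtain ⟨P0, hP0⟩ := hne
  -- the transform is nonzero somewhere
  have hex : ∃ Q0 : Setoid {x // x ∈ T},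
      ∑ P : Setoid {x // x ∈ T}, (if P ⊓ Q0 = ⊥ then c P * Ft P else 0) ≠ 0 := by
    by_contra hcon
    push Not at hcon
    have h0 := partition_matrix_injective (fun P => c P * Ft P) hcon
      (P0.rel.comap Subtype.val)
    obtain ⟨p, hp, _⟩ := exists_labelling hb hΩ P0
    have hcne : c (P0.rel.comap Subtype.val) ≠ 0 := by
      simp only [hc]
      rw [Nat.cast_ne_zero]
      apply Finset.card_ne_zero_of_mem (a := fun t : {x // x ∈ T} => p t.1)
      simp only [Finset.mem_filter, Finset.mem_univ, true_and]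
      ext t t'
      exact hp t.1 t'.1
    rcases mul_eq_zero.mp h0 with h6 | h6
    · exact hcne h6
    · exact hP0 ((hFt P0).trans h6)
  obtain ⟨Q0, hQ0⟩ := hex
  have hcardQ : b < Fintype.card (Quotient Q0) := by
    by_contra hle
    push Not at hle
    obtain ⟨κ, rfl⟩ := exists_ker_eq Q0 hle
    exact hQ0 (hU κ)
  set Aτ : Finset {x // x ∈ T} := Finset.univ.filter (fun x => ∀ y, Q0 x y → y = x) with hAτ
  set A : Finset Ω := Aτ.map ⟨Subtype.val, Subtype.val_injective⟩ with hA
  have hmemA : ∀ x : {x // x ∈ T}, x.1 ∈ A ↔ ∀ y, Q0 x y → y = x := by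
    intro x
    simp only [hA, Finset.mem_map, Function.Embedding.coeFn_mk, hAτ, Finset.mem_filter,
      Finset.mem_univ, true_and]
    constructor
    · rintro ⟨z, hz, hzx⟩
      have : z = x := Subtype.ext hzx
      rw [← this]
      exact hz
    · intro h
      exact ⟨x, h, rfl⟩
  have hAT : A ⊆ T := by
    intro x hx
    simp only [hA, Finset.mem_map, Function.Embedding.coeFn_mk] at hx
    obtain ⟨z, _, rfl⟩ := hx
    exact z.2
  have hcount : 2 * b + 2 ≤ A.card + T.card := by
    have h1 : 2 * Fintype.card (Quotient Q0) ≤ Aτ.card + Fintype.card {x // x ∈ T} := by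
      convert two_mul_card_quotient_le Q0
    rw [Fintype.card_coe] at h1
    have h2 : A.card = Aτ.card := Finset.card_map _
    rw [h2]
    omega
  refine ⟨A, hAT, hcount, ?_⟩
  by_contra hcon
  push Not at hcon
  set Y := Finset.univ.filter (fun g : Equiv.Perm Ω =>
        (∀ x ∈ T \ A, g x = x) ∧ (∀ x ∈ A, g x ∈ A)) with hY
  have hYT : ∀ g ∈ Y, ∀ x, x ∈ T → g x ∈ T := by
    intro g hg x hx
    simp only [hY, Finset.mem_filter, Finset.mem_univ, true_and] at hg
    by_cases hxA : x ∈ A
    · exact hAT (hg.2 x hxA)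
    · rw [hg.1 x (Finset.mem_sdiff.mpr ⟨hx, hxA⟩)]
      exact hx
  -- the key vanishing for every g in Y
  have hterm : ∀ g ∈ Y, ∃ e : {x // x ∈ T} ≃ {x // x ∈ T},
      (∀ x, (e x).1 = g x.1) ∧ Q0.comap e = Q0 := by
    intro g hg
    refine ⟨Equiv.Perm.subtypePermOfFintype g (hYT g hg), fun x => rfl, ?_⟩
    set e := Equiv.Perm.subtypePermOfFintype g (hYT g hg) with he
    have hev : ∀ x, (e x).1 = g x.1 := fun x => rfl
    simp only [hY, Finset.mem_filter, Finset.mem_univ, true_and] at hg
    have hfixed : ∀ x : {x // x ∈ T}, x.1 ∉ A → e x = x := by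
      intro x hx
      apply Subtype.ext
      rw [hev]
      exact hg.1 x.1 (Finset.mem_sdiff.mpr ⟨x.2, hx⟩)
    have hmove : ∀ x : {x // x ∈ T}, x.1 ∈ A → (e x).1 ∈ A := by
      intro x hx
      rw [hev]
      exact hg.2 x.1 hx
    ext x y
    rw [Setoid.comap_rel]
    by_cases hx : x.1 ∈ A
    · constructor
      · intro h
        have := (hmemA (e x)).mp (hmove x hx) (e y) h
        rw [e.injective this]
      · intro h
        have := (hmemA x).mp hx y h
        rw [this]
    · rw [hfixed x hx]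
      by_cases hy : y.1 ∈ A
      · constructor
        · intro h
          have := (hmemA (e y)).mp (hmove y hy) x (Setoid.symm' Q0 h)
          exact absurd (this ▸ hmove y hy) hx
        · intro h
          have := (hmemA y).mp hy x (Setoid.symm' Q0 h)
          exact absurd (this ▸ hy) hx
      · rw [hfixed y hy]
  have hsumg : ∀ g ∈ Y, ∃ e : {x // x ∈ T} ≃ {x // x ∈ T}, (∀ x, (e x).1 = g x.1) ∧
      ∑ P : Setoid {x // x ∈ T}, (if P ⊓ Q0 = ⊥ then c P * Ft P else 0) =
      ∑ P : Setoid {x // x ∈ T}, (if P ⊓ Q0 = ⊥ then c P * Ft (P.comap e) else 0) := by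
    intro g hg
    obtain ⟨e, he, heQ⟩ := hterm g hg
    refine ⟨e, he, ?_⟩
    rw [← Equiv.sum_comp (comapEquiv e)]
    apply Finset.sum_congr rfl
    intro P _
    have h1 : (comapEquiv e P) ⊓ Q0 = ⊥ ↔ P ⊓ Q0 = ⊥ := by
      have : (comapEquiv e P) ⊓ Q0 = (P ⊓ Q0).comap e := by
        conv_lhs => rw [← heQ]
        rfl
      rw [this, comap_eq_bot_iff]
    have h2 : c (comapEquiv e P) = c P := by
      simp only [hc]
      congr 1
      exact card_ker_comap e P
    simp only [h1, h2]
    rfl
  set E : Equiv.Perm Ω → ({x // x ∈ T} ≃ {x // x ∈ T}) := fun g =>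
    if h : g ∈ Y then (hsumg g h).choose else Equiv.refl _ with hE
  have hE1 : ∀ g ∈ Y, ∀ x, (E g x).1 = g x.1 := by
    intro g hg
    simp only [hE, dif_pos hg]
    exact (hsumg g hg).choose_spec.1
  have hE2 : ∀ g ∈ Y, ∑ P : Setoid {x // x ∈ T}, (if P ⊓ Q0 = ⊥ then c P * Ft P else 0) =
      ∑ P : Setoid {x // x ∈ T}, (if P ⊓ Q0 = ⊥ then c P * Ft (P.comap (E g)) else 0) := by
    intro g hg
    simp only [hE, dif_pos hg]
    exact (hsumg g hg).choose_spec.2
  have hvanish : ∀ P : Setoid {x // x ∈ T}, ∑ g ∈ Y, Ft (P.comap (E g)) = 0 := by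
    intro P
    by_cases hreal : ∃ Pt : BlockPartition Ω b, Pt.rel.comap Subtype.val = P
    · obtain ⟨Pt, rfl⟩ := hreal
      rw [← hcon Pt]
      apply Finset.sum_congr rfl
      intro g hg
      rw [hFt]
      congr 1
      ext x y
      simp only [Setoid.comap_rel, inv_inv, hE1 g hg]
    · apply Finset.sum_eq_zero
      intro g hg
      apply hFt0
      rintro ⟨Pt, hPt⟩
      apply hreal
      refine ⟨g • Pt, ?_⟩
      ext x y
      obtain ⟨x', rfl⟩ := (E g).surjective x
      obtain ⟨y', rfl⟩ := (E g).surjective y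
      have h1 : (Pt.rel.comap Subtype.val) x' y' ↔ (P.comap (E g)) x' y' := by rw [hPt]
      simp only [Setoid.comap_rel] at h1
      simp only [Setoid.comap_rel, hE1 g hg]
      have h2 : ∀ z : Ω, g⁻¹ (g z) = z := fun z => by simp
      show Pt.rel (g⁻¹ (g x'.1)) (g⁻¹ (g y'.1)) ↔ _
      rw [h2, h2]
      exact h1
  have hone : (1 : Equiv.Perm Ω) ∈ Y := by
    simp only [hY, Finset.mem_filter, Finset.mem_univ, true_and]
    exact ⟨fun x _ => rfl, fun x hx => hx⟩
  have htotal : (Y.card : ℂ) *
      ∑ P : Setoid {x // x ∈ T}, (if P ⊓ Q0 = ⊥ then c P * Ft P else 0) = 0 := by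
    rw [← nsmul_eq_mul, ← Finset.sum_const, Finset.sum_congr rfl hE2, Finset.sum_comm]
    apply Finset.sum_eq_zero
    intro P _
    by_cases hPQ : P ⊓ Q0 = ⊥
    · simp only [if_pos hPQ]
      rw [← Finset.mul_sum, hvanish P, mul_zero]
    · simp only [if_neg hPQ]
      exact Finset.sum_const_zero
  rcases mul_eq_zero.mp htotal with h | h
  · rw [Nat.cast_eq_zero] at h
    exact Finset.card_ne_zero_of_mem hone h
  · exact hQ0 h

end Vale.Agent.P181
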