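import Mathlib
import Vale.Agent.P181.Key3

namespace Vale.Agent.P181

open Classical

/-- A colouring of the ambient set realising a given equivalence relation on a finite subset. -/
theorem exists_colouring {Ω : Type*} (T : Finset Ω) (Q : Setoid {x // x ∈ T}) :
    ∃ κ : Ω → ℕ, (∀ x y : {x // x ∈ T}, κ x.1 = κ y.1 ↔ Q x y) ∧
      (T.image κ).card = Fintype.card (Quotient Q) := by
  let ι : Quotient Q ≃ Fin (Fintype.card (Quotient Q)) := Fintype.equivFin _
  let κ : Ω → ℕ := fun x => if h : x ∈ T then (ι (Quotient.mk Q ⟨x, h⟩) : ℕ) else 0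
  have hκ : ∀ x : {x // x ∈ T}, κ x.1 = (ι (Quotient.mk Q x) : ℕ) := by
    intro x
    simp only [κ, dif_pos x.2]
  refine ⟨κ, ?_, ?_⟩
  · intro x y
    rw [hκ, hκ, Fin.val_inj, ι.apply_eq_iff_eq]
    exact ⟨fun h => Quotient.exact h, fun h => Quotient.sound h⟩
  · have h1 : T.image κ = (Finset.univ : Finset (Quotient Q)).image (fun c => (ι c : ℕ)) := by
      ext n
      simp only [Finset.mem_image, Finset.mem_univ, true_and]
      constructor
      · rintro ⟨x, hx, rfl⟩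
        exact ⟨Quotient.mk Q ⟨x, hx⟩, (hκ ⟨x, hx⟩).symm⟩
      · rintro ⟨c, rfl⟩
        obtain ⟨x, rfl⟩ := Quotient.exists_rep c
        exact ⟨x.1, x.2, hκ x⟩
    rw [h1, Finset.card_image_of_injective _ (fun c c' h => ι.injective (Fin.val_injective h)),
      Finset.card_univ]

theorem key_lemma_col {Ω : Type*} [Fintype Ω] {a b : ℕ} (hb : 0 < b)
    (hΩ : Fintype.card Ω = a * b)
    (T : Finset Ω) (f : BlockPartition Ω b → ℂ)
    (hinv : ∀ g : Equiv.Perm Ω, (∀ x ∈ T, g x = x) → ∀ P, f (g • P) = f P)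
    (hker : ∀ Q : BlockPartition Ω a,
      ∑ P : BlockPartition Ω b, (if Transversal P Q then f P else 0) = 0)
    (hne : ∃ P, f P ≠ 0) :
    ∃ κ : Ω → ℕ, b < (T.image κ).card ∧
      ∃ P, ∑ g ∈ Finset.univ.filter (fun g : Equiv.Perm Ω =>
        (∀ x ∈ T, g x ∈ T) ∧ (∀ x ∈ T, ∀ y ∈ T, (κ (g x) = κ (g y) ↔ κ x = κ y))),
          f (g⁻¹ • P) ≠ 0 := by
  obtain ⟨Ft, hFt, hFt0, hU⟩ := exists_Ft hb hΩ T f hinv hker
  set c : Setoid {x // x ∈ T} → ℂ := fun P =>
    ((Finset.univ.filter (fun r : {x // x ∈ T} → Fin a => Setoid.ker r = P)).card : ℂ) with hc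
  obtain ⟨P0, hP0⟩ := hne
  have hex : ∃ Q0 : Setoid {x // x ∈ T},
      ∑ P : Setoid {x // x ∈ T}, (if P ⊓ Q0 = ⊥ then c P * Ft P else 0) ≠ 0 := by
    by_contra hcon
    push Not at hcon
    have h0 := partition_matrix_injective (fun P => c P * Ft P) hcon
      (P0.rel.comap Subtype.val)
    obtain ⟨p, hp, _⟩ := exists_labelling hb hΩ P0
    have hcne : c (P0.rel.comap Subtype.val) ≠ 0 := by
      simp only [hc]
      rw [Nat.cast_ne_zero]
      apply Finset.card_ne_zero_of_mem (a := fun t : {x // x ∈ T} => p t.1)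
      simp only [Finset.mem_filter, Finset.mem_univ, true_and]
      ext t t'
      exact hp t.1 t'.1
    rcases mul_eq_zero.mp h0 with h6 | h6
    · exact hcne h6
    · exact hP0 ((hFt P0).trans h6)
  obtain ⟨Q0, hQ0⟩ := hex
  have hcardQ : b < Fintype.card (Quotient Q0) := by
    by_contra hle
    push Not at hle
    obtain ⟨κ, rfl⟩ := exists_ker_eq Q0 hle
    exact hQ0 (hU κ)
  obtain ⟨κ, hκ, hκcard⟩ := exists_colouring T Q0
  refine ⟨κ, by rw [hκcard]; exact hcardQ, ?_⟩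
  by_contra hcon
  push Not at hcon
  set Y := Finset.univ.filter (fun g : Equiv.Perm Ω =>
        (∀ x ∈ T, g x ∈ T) ∧ (∀ x ∈ T, ∀ y ∈ T, (κ (g x) = κ (g y) ↔ κ x = κ y))) with hY
  have hsumg : ∀ g ∈ Y, ∃ e : {x // x ∈ T} ≃ {x // x ∈ T}, (∀ x, (e x).1 = g x.1) ∧
      ∑ P : Setoid {x // x ∈ T}, (if P ⊓ Q0 = ⊥ then c P * Ft P else 0) =
      ∑ P : Setoid {x // x ∈ T}, (if P ⊓ Q0 = ⊥ then c P * Ft (P.comap e) else 0) := by
    intro g hg
    simp only [hY, Finset.mem_filter, Finset.mem_univ, true_and] at hg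
    set e := Equiv.Perm.subtypePermOfFintype g hg.1 with he
    have hev : ∀ x, (e x).1 = g x.1 := fun x => rfl
    have heQ : Q0.comap e = Q0 := by
      ext x y
      rw [Setoid.comap_rel, ← hκ, ← hκ, hev, hev]
      exact hg.2 x.1 x.2 y.1 y.2
    refine ⟨e, hev, ?_⟩
    rw [← Equiv.sum_comp (comapEquiv e)]
    apply Finset.sum_congr rfl
    intro P _
    have h1 : (comapEquiv e P) ⊓ Q0 = ⊥ ↔ P ⊓ Q0 = ⊥ := by
      have : (comapEquiv e P) ⊓ Q0 = (P ⊓ Q0).comap e := by
        conv_lhs => rw [← heQ]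
        rfl
      rw [this, comap_eq_bot_iff]
    have h2 : c (comapEquiv e P) = c P := by
      simp only [hc]
      congr 1
      exact card_ker_comap e P
    simp only [h1, h2]
    rfl
  set E : Equiv.Perm Ω → ({x // x ∈ T} ≃ {x // x ∈ T}) := fun g =>
    if h : g ∈ Y then (hsumg g h).choose else Equiv.refl _ with hE
  have hE1 : ∀ g ∈ Y, ∀ x, (E g x).1 = g x.1 := by
    intro g hg
    simp only [hE, dif_pos hg]
    exact (hsumg g hg).choose_spec.1
  have hE2 : ∀ g ∈ Y, ∑ P : Setoid {x // x ∈ T}, (if P ⊓ Q0 = ⊥ then c P * Ft P else 0) =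
      ∑ P : Setoid {x // x ∈ T}, (if P ⊓ Q0 = ⊥ then c P * Ft (P.comap (E g)) else 0) := by
    intro g hg
    simp only [hE, dif_pos hg]
    exact (hsumg g hg).choose_spec.2
  have hvanish : ∀ P : Setoid {x // x ∈ T}, ∑ g ∈ Y, Ft (P.comap (E g)) = 0 := by
    intro P
    by_cases hreal : ∃ Pt : BlockPartition Ω b, Pt.rel.comap Subtype.val = P
    · obtain ⟨Pt, rfl⟩ := hreal
      rw [← hcon Pt]
      apply Finset.sum_congr rfl
      intro g hg
      rw [hFt]
      congr 1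
      ext x y
      simp only [Setoid.comap_rel, inv_inv, hE1 g hg]
    · apply Finset.sum_eq_zero
      intro g hg
      apply hFt0
      rintro ⟨Pt, hPt⟩
      apply hreal
      refine ⟨g • Pt, ?_⟩
      ext x y
      obtain ⟨x', rfl⟩ := (E g).surjective x
      obtain ⟨y', rfl⟩ := (E g).surjective y
      have h1 : (Pt.rel.comap Subtype.val) x' y' ↔ (P.comap (E g)) x' y' := by rw [hPt]
      simp only [Setoid.comap_rel] at h1
      simp only [Setoid.comap_rel, hE1 g hg]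
      have h2 : ∀ z : Ω, g⁻¹ (g z) = z := fun z => by simp
      show Pt.rel (g⁻¹ (g x'.1)) (g⁻¹ (g y'.1)) ↔ _
      rw [h2, h2]
      exact h1
  have hone : (1 : Equiv.Perm Ω) ∈ Y := by
    simp only [hY, Finset.mem_filter, Finset.mem_univ, true_and]
    exact ⟨fun x hx => hx, fun x _ y _ => Iff.rfl⟩
  have htotal : (Y.card : ℂ) *
      ∑ P : Setoid {x // x ∈ T}, (if P ⊓ Q0 = ⊥ then c P * Ft P else 0) = 0 := by
    rw [← nsmul_eq_mul, ← Finset.sum_const, Finset.sum_congr rfl hE2, Finset.sum_comm]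
    apply Finset.sum_eq_zero
    intro P _
    by_cases hPQ : P ⊓ Q0 = ⊥
    · simp only [if_pos hPQ]
      rw [← Finset.mul_sum, hvanish P, mul_zero]
    · simp only [if_neg hPQ]
      exact Finset.sum_const_zero
  rcases mul_eq_zero.mp htotal with h | h
  · rw [Nat.cast_eq_zero] at h
    exact Finset.card_ne_zero_of_mem hone h
  · exact hQ0 h

end Vale.Agent.P181
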