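import Mathlib
import Vale.Agent.P181.Key2

namespace Vale.Agent.P181

open Classical Representation
open scoped MonoidAlgebra

theorem transversal_smul {Ω : Type*} {k l : ℕ} (g : Equiv.Perm Ω) (P : BlockPartition Ω k)
    (Q : BlockPartition Ω l) : Transversal (g • P) Q ↔ Transversal P (g⁻¹ • Q) := by
  constructor
  · intro h x y
    obtain ⟨z, ⟨hz1, hz2⟩, hu⟩ := h (g x) (g y)
    rw [smul_rel] at hz1
    refine ⟨g⁻¹ z, ⟨by simpa using hz1, by rw [smul_rel]; simpa using hz2⟩, ?_⟩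
    rintro z' ⟨h1, h2⟩
    rw [smul_rel] at h2
    have := hu (g z') ⟨by rw [smul_rel]; simpa using h1, by simpa using h2⟩
    rw [← this]
    simp
  · intro h x y
    obtain ⟨z, ⟨hz1, hz2⟩, hu⟩ := h (g⁻¹ x) (g⁻¹ y)
    rw [smul_rel] at hz2
    refine ⟨g z, ⟨by rw [smul_rel]; simpa using hz1, by simpa using hz2⟩, ?_⟩
    rintro z' ⟨h1, h2⟩
    rw [smul_rel] at h1
    have := hu (g⁻¹ z') ⟨h1, by rw [smul_rel]; simpa using h2⟩
    rw [← this]
    simp

variable {Ω : Type*} [Fintype Ω]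

noncomputable def psiLin (Ω : Type*) [Fintype Ω] (k l : ℕ) :
    ℂ[BlockPartition Ω k] →ₗ[ℂ] ℂ[BlockPartition Ω l] :=
  (MonoidAlgebra.coeffLinearEquiv ℂ).symm.toLinearMap ∘ₗ
    (Finsupp.linearEquivFunOnFinite ℂ ℂ (BlockPartition Ω l)).symm.toLinearMap ∘ₗ
    (Matrix.mulVecLin (Matrix.of (fun (Q : BlockPartition Ω l) (P : BlockPartition Ω k) =>
      if Transversal P Q then (1 : ℂ) else 0))) ∘ₗ
    (Finsupp.linearEquivFunOnFinite ℂ ℂ (BlockPartition Ω k)).toLinearMap ∘ₗ
    (MonoidAlgebra.coeffLinearEquiv ℂ).toLinearMap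

theorem psiLin_coeff (k l : ℕ) (m : ℂ[BlockPartition Ω k]) (Q : BlockPartition Ω l) :
    (psiLin Ω k l m).coeff Q =
      ∑ P : BlockPartition Ω k, (if Transversal P Q then m.coeff P else 0) := by
  simp [psiLin, Matrix.mulVec, dotProduct]

noncomputable def psi (Ω : Type*) [Fintype Ω] (k l : ℕ) :
    IntertwiningMap (ofMulAction ℂ (Equiv.Perm Ω) (BlockPartition Ω k))
      (ofMulAction ℂ (Equiv.Perm Ω) (BlockPartition Ω l)) where
  toLinearMap := psiLin Ω k l
  isIntertwining' g := by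
    ext m Q
    simp only [LinearMap.comp_apply, psiLin_coeff, coeff_ofMulAction]
    rw [← Equiv.sum_comp (MulAction.toPerm g)]
    apply Finset.sum_congr rfl
    intro P _
    simp only [MulAction.toPerm_apply, inv_smul_smul, transversal_smul]

theorem psi_injective_on_fixed {a b : ℕ} (hb : 0 < b) (hΩ : Fintype.card Ω = a * b)
    (T : Finset Ω) (hT : T.card ≤ b + 1) (m : ℂ[BlockPartition Ω b])
    (hfix : ∀ g : Equiv.Perm Ω, (∀ x ∈ T, g x = x) →
      ofMulAction ℂ (Equiv.Perm Ω) (BlockPartition Ω b) g m = m)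
    (hker : psi Ω b a m = 0) : m = 0 := by
  have h1 : ∀ P, m.coeff P = 0 := by
    apply key_lemma hb hΩ T hT (fun P => m.coeff P)
    · intro g hg P
      have hg' : ∀ x ∈ T, g⁻¹ x = x := by
        intro x hx
        rw [Equiv.Perm.inv_eq_iff_eq]
        exact (hg x hx).symm
      have h2 := congrArg (fun z => z.coeff P) (hfix g⁻¹ hg')
      simp only [coeff_ofMulAction, inv_inv] at h2
      exact h2
    · intro Q
      have h2 : (psiLin Ω b a m).coeff Q = 0 := by
        have : psiLin Ω b a m = 0 := hker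
        rw [this]
        rfl
      rw [psiLin_coeff] at h2
      exact h2
  ext P
  exact h1 P

theorem multiplicity_le {a b : ℕ} (hb : 0 < b) (hΩ : Fintype.card Ω = a * b)
    {W : Type*} [AddCommGroup W] [Module ℂ W] (ρ : Representation ℂ (Equiv.Perm Ω) W)
    [ρ.IsIrreducible] (T : Finset Ω) (hT : T.card ≤ b + 1) (w : W) (hw : w ≠ 0)
    (hfix : ∀ g : Equiv.Perm Ω, (∀ x ∈ T, g x = x) → ρ g w = w) :
    Module.finrank ℂ (IntertwiningMap ρ (ofMulAction ℂ (Equiv.Perm Ω) (BlockPartition Ω b))) ≤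
    Module.finrank ℂ (IntertwiningMap ρ (ofMulAction ℂ (Equiv.Perm Ω) (BlockPartition Ω a))) := by
  have hzero : ∀ {k : ℕ} (φ : IntertwiningMap ρ
      (ofMulAction ℂ (Equiv.Perm Ω) (BlockPartition Ω k))), φ w = 0 → φ = 0 := by
    intro k φ hφ
    rcases IsIrreducible.injective_or_eq_zero φ with h | h
    · exact absurd (h (hφ.trans (map_zero φ).symm)) hw
    · exact h
  haveI : Module.Finite ℂ
      (IntertwiningMap ρ (ofMulAction ℂ (Equiv.Perm Ω) (BlockPartition Ω a))) := by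
    let ev : IntertwiningMap ρ (ofMulAction ℂ (Equiv.Perm Ω) (BlockPartition Ω a)) →ₗ[ℂ]
        ℂ[BlockPartition Ω a] :=
      { toFun := fun φ => φ w
        map_add' := fun _ _ => rfl
        map_smul' := fun _ _ => rfl }
    apply Module.Finite.of_injective ev
    intro φ φ' h
    have : (φ - φ') w = 0 := by
      show φ w - φ' w = 0
      exact sub_eq_zero.mpr h
    exact sub_eq_zero.mp (hzero _ this)
  apply LinearMap.finrank_le_finrank_of_injective
    (f := IntertwiningMap.llcomp ρ _ _ (psi Ω b a))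
  intro φ φ' h
  have h1 : (psi Ω b a) ((φ - φ') w) = 0 := by
    have h2 : (psi Ω b a) (φ w) = (psi Ω b a) (φ' w) :=
      congrArg (fun χ : IntertwiningMap ρ
        (ofMulAction ℂ (Equiv.Perm Ω) (BlockPartition Ω a)) => χ w) h
    show (psi Ω b a) (φ w - φ' w) = 0
    rw [map_sub, h2, sub_self]
  have h3 : (φ - φ') w = 0 := by
    apply psi_injective_on_fixed hb hΩ T hT _ _ h1
    intro g hg
    rw [← IntertwiningMap.isIntertwining, hfix g hg]
  exact sub_eq_zero.mp (hzero _ h3)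

end Vale.Agent.P181
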