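import Mathlib
import Vale.Agent.P181.Key3
import Vale.Agent.P181.Rep

namespace Vale.Agent.P181

open Classical Representation
open scoped MonoidAlgebra

variable {Ω : Type*} [Fintype Ω]

theorem sum_young_fixed {W : Type*} [AddCommGroup W] [Module ℂ W]
    (ρ : Representation ℂ (Equiv.Perm Ω) W) (T A : Finset Ω) (w : W) (h : Equiv.Perm Ω)
    (h1 : ∀ x ∈ T \ A, h x = x) (h2 : ∀ x ∈ A, h x ∈ A) :
    ρ h (∑ g ∈ Finset.univ.filter (fun g : Equiv.Perm Ω =>
        (∀ x ∈ T \ A, g x = x) ∧ (∀ x ∈ A, g x ∈ A)), ρ g w) =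
    ∑ g ∈ Finset.univ.filter (fun g : Equiv.Perm Ω =>
        (∀ x ∈ T \ A, g x = x) ∧ (∀ x ∈ A, g x ∈ A)), ρ g w := by
  set Y := Finset.univ.filter (fun g : Equiv.Perm Ω =>
        (∀ x ∈ T \ A, g x = x) ∧ (∀ x ∈ A, g x ∈ A)) with hY
  have himg : Y.image (fun g => h * g) = Y := by
    apply Finset.eq_of_subset_of_card_le
    · intro g' hg'
      rw [Finset.mem_image] at hg'
      obtain ⟨g, hg, rfl⟩ := hg'
      simp only [hY, Finset.mem_filter, Finset.mem_univ, true_and] at hg ⊢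
      refine ⟨fun x hx => ?_, fun x hx => ?_⟩
      · rw [Equiv.Perm.mul_apply, hg.1 x hx, h1 x hx]
      · rw [Equiv.Perm.mul_apply]
        exact h2 _ (hg.2 x hx)
    · rw [Finset.card_image_of_injective _ (mul_right_injective h)]
  rw [map_sum]
  conv_rhs => rw [← himg]
  rw [Finset.sum_image (fun x _ y _ hxy => mul_right_injective h hxy)]
  apply Finset.sum_congr rfl
  intro g _
  rw [map_mul]
  rfl

theorem psi_injective_on_fixed_ext {a b : ℕ} (hb : 0 < b) (hΩ : Fintype.card Ω = a * b)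
    {W : Type*} [AddCommGroup W] [Module ℂ W] (ρ : Representation ℂ (Equiv.Perm Ω) W)
    (T : Finset Ω) (w : W)
    (hfix : ∀ g : Equiv.Perm Ω, (∀ x ∈ T, g x = x) → ρ g w = w)
    (hA : b + 1 < T.card → ∀ A ⊆ T, 2 * b + 2 ≤ A.card + T.card → ∀ v : W,
      (∀ g : Equiv.Perm Ω, (∀ x ∈ T \ A, g x = x) → (∀ x ∈ A, g x ∈ A) → ρ g v = v) → v = 0)
    (φ : IntertwiningMap ρ (ofMulAction ℂ (Equiv.Perm Ω) (BlockPartition Ω b)))
    (hker : psi Ω b a (φ w) = 0) : φ w = 0 := by
  have hfixm : ∀ g : Equiv.Perm Ω, (∀ x ∈ T, g x = x) →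
      ofMulAction ℂ (Equiv.Perm Ω) (BlockPartition Ω b) g (φ w) = φ w := by
    intro g hg
    rw [← IntertwiningMap.isIntertwining, hfix g hg]
  rcases Nat.lt_or_ge (b + 1) T.card with hlt | hge
  · by_contra hne
    set m := φ w with hm
    have hex : ∃ P, m.coeff P ≠ 0 := by
      by_contra hcon
      push Not at hcon
      apply hne
      ext P
      exact hcon P
    obtain ⟨A, hAT, hcount, P, hsum⟩ := key_lemma_ext hb hΩ T (fun P => m.coeff P)
      (by
        intro g hg P
        have hg' : ∀ x ∈ T, g⁻¹ x = x := by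
          intro x hx
          rw [Equiv.Perm.inv_eq_iff_eq]
          exact (hg x hx).symm
        have h2 := congrArg (fun z => z.coeff P) (hfixm g⁻¹ hg')
        simp only [coeff_ofMulAction, inv_inv] at h2
        exact h2)
      (by
        intro Q
        have h2 : (psiLin Ω b a m).coeff Q = 0 := by
          have : psiLin Ω b a m = 0 := hker
          rw [this]
          rfl
        rw [psiLin_coeff] at h2
        exact h2) hex
    apply hsum
    set Y := Finset.univ.filter (fun g : Equiv.Perm Ω =>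
        (∀ x ∈ T \ A, g x = x) ∧ (∀ x ∈ A, g x ∈ A)) with hY
    have hv : ∑ g ∈ Y, ρ g w = 0 :=
      hA hlt A hAT hcount _ (fun h h1 h2 => sum_young_fixed ρ T A w h h1 h2)
    have h3 : φ (∑ g ∈ Y, ρ g w) = 0 := by rw [hv, map_zero]
    rw [map_sum] at h3
    have h4 := congrArg (fun z => z.coeff P) h3
    simp only [IntertwiningMap.isIntertwining] at h4
    have h5 : (∑ g ∈ Y, (ofMulAction ℂ (Equiv.Perm Ω) (BlockPartition Ω b) g) m).coeff P =
        ∑ g ∈ Y, m.coeff (g⁻¹ • P) := by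
      rw [← MonoidAlgebra.coeffLinearEquiv_apply (R := ℂ), map_sum, Finsupp.finsetSum_apply]
      apply Finset.sum_congr rfl
      intro g _
      rw [MonoidAlgebra.coeffLinearEquiv_apply, coeff_ofMulAction]
    rw [← h5]
    exact h4
  · exact psi_injective_on_fixed hb hΩ T hge _ hfixm hker

end Vale.Agent.P181
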