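import Mathlib
import Vale.Agent.P181.Key4
import Vale.Agent.P181.Rep2

namespace Vale.Agent.P181

open Classical Representation
open scoped MonoidAlgebra

variable {Ω : Type*} [Fintype Ω]

theorem sum_colour_fixed {W : Type*} [AddCommGroup W] [Module ℂ W]
    (ρ : Representation ℂ (Equiv.Perm Ω) W) (T : Finset Ω) (κ : Ω → ℕ) (w : W)
    (h : Equiv.Perm Ω)
    (h1 : ∀ x ∈ T, h x ∈ T) (h2 : ∀ x ∈ T, ∀ y ∈ T, (κ (h x) = κ (h y) ↔ κ x = κ y)) :
    ρ h (∑ g ∈ Finset.univ.filter (fun g : Equiv.Perm Ω =>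
        (∀ x ∈ T, g x ∈ T) ∧ (∀ x ∈ T, ∀ y ∈ T, (κ (g x) = κ (g y) ↔ κ x = κ y))), ρ g w) =
    ∑ g ∈ Finset.univ.filter (fun g : Equiv.Perm Ω =>
        (∀ x ∈ T, g x ∈ T) ∧ (∀ x ∈ T, ∀ y ∈ T, (κ (g x) = κ (g y) ↔ κ x = κ y))), ρ g w := by
  set Y := Finset.univ.filter (fun g : Equiv.Perm Ω =>
        (∀ x ∈ T, g x ∈ T) ∧ (∀ x ∈ T, ∀ y ∈ T, (κ (g x) = κ (g y) ↔ κ x = κ y))) with hY
  have himg : Y.image (fun g => h * g) = Y := by
    apply Finset.eq_of_subset_of_card_le
    · intro g' hg'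
      rw [Finset.mem_image] at hg'
      obtain ⟨g, hg, rfl⟩ := hg'
      simp only [hY, Finset.mem_filter, Finset.mem_univ, true_and] at hg ⊢
      refine ⟨fun x hx => ?_, fun x hx y hy => ?_⟩
      · rw [Equiv.Perm.mul_apply]
        exact h1 _ (hg.1 x hx)
      · rw [Equiv.Perm.mul_apply, Equiv.Perm.mul_apply, h2 _ (hg.1 x hx) _ (hg.1 y hy)]
        exact hg.2 x hx y hy
    · rw [Finset.card_image_of_injective _ (mul_right_injective h)]
  rw [map_sum]
  conv_rhs => rw [← himg]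
  rw [Finset.sum_image (fun x _ y _ hxy => mul_right_injective h hxy)]
  apply Finset.sum_congr rfl
  intro g _
  rw [map_mul]
  rfl

theorem psi_injective_on_fixed_col {a b : ℕ} (hb : 0 < b) (hΩ : Fintype.card Ω = a * b)
    {W : Type*} [AddCommGroup W] [Module ℂ W] (ρ : Representation ℂ (Equiv.Perm Ω) W)
    (T : Finset Ω) (w : W)
    (hfix : ∀ g : Equiv.Perm Ω, (∀ x ∈ T, g x = x) → ρ g w = w)
    (hcol : b + 1 < T.card → ∀ κ : Ω → ℕ, b < (T.image κ).card → ∀ v : W,
      (∀ g : Equiv.Perm Ω, (∀ x ∈ T, g x ∈ T) →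
        (∀ x ∈ T, ∀ y ∈ T, (κ (g x) = κ (g y) ↔ κ x = κ y)) → ρ g v = v) → v = 0)
    (φ : IntertwiningMap ρ (ofMulAction ℂ (Equiv.Perm Ω) (BlockPartition Ω b)))
    (hker : psi Ω b a (φ w) = 0) : φ w = 0 := by
  have hfixm : ∀ g : Equiv.Perm Ω, (∀ x ∈ T, g x = x) →
      ofMulAction ℂ (Equiv.Perm Ω) (BlockPartition Ω b) g (φ w) = φ w := by
    intro g hg
    rw [← IntertwiningMap.isIntertwining, hfix g hg]
  rcases Nat.lt_or_ge (b + 1) T.card with hlt | hge
  · by_contra hne
    set m := φ w with hm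
    have hex : ∃ P, m.coeff P ≠ 0 := by
      by_contra hcon
      push Not at hcon
      apply hne
      ext P
      exact hcon P
    obtain ⟨κ, hκ, P, hsum⟩ := key_lemma_col hb hΩ T (fun P => m.coeff P)
      (by
        intro g hg P
        have hg' : ∀ x ∈ T, g⁻¹ x = x := by
          intro x hx
          rw [Equiv.Perm.inv_eq_iff_eq]
          exact (hg x hx).symm
        have h2 := congrArg (fun z => z.coeff P) (hfixm g⁻¹ hg')
        simp only [coeff_ofMulAction, inv_inv] at h2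
        exact h2)
      (by
        intro Q
        have h2 : (psiLin Ω b a m).coeff Q = 0 := by
          have : psiLin Ω b a m = 0 := hker
          rw [this]
          rfl
        rw [psiLin_coeff] at h2
        exact h2) hex
    apply hsum
    set Y := Finset.univ.filter (fun g : Equiv.Perm Ω =>
        (∀ x ∈ T, g x ∈ T) ∧ (∀ x ∈ T, ∀ y ∈ T, (κ (g x) = κ (g y) ↔ κ x = κ y))) with hY
    have hv : ∑ g ∈ Y, ρ g w = 0 :=
      hcol hlt κ hκ _ (fun h h1 h2 => sum_colour_fixed ρ T κ w h h1 h2)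
    have h3 : φ (∑ g ∈ Y, ρ g w) = 0 := by rw [hv, map_zero]
    rw [map_sum] at h3
    have h4 := congrArg (fun z => z.coeff P) h3
    simp only [IntertwiningMap.isIntertwining] at h4
    have h5 : (∑ g ∈ Y, (ofMulAction ℂ (Equiv.Perm Ω) (BlockPartition Ω b) g) m).coeff P =
        ∑ g ∈ Y, m.coeff (g⁻¹ • P) := by
      rw [← MonoidAlgebra.coeffLinearEquiv_apply (R := ℂ), map_sum, Finsupp.finsetSum_apply]
      apply Finset.sum_congr rfl
      intro g _
      rw [MonoidAlgebra.coeffLinearEquiv_apply, coeff_ofMulAction]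
    rw [← h5]
    exact h4
  · exact psi_injective_on_fixed hb hΩ T hge _ hfixm hker

/-- General principle: if the canonical map kills no nonzero image of the vector `w`,
the multiplicity inequality follows. -/
theorem multiplicity_le_of_key {a b : ℕ}
    {W : Type*} [AddCommGroup W] [Module ℂ W] (ρ : Representation ℂ (Equiv.Perm Ω) W)
    [ρ.IsIrreducible] (w : W) (hw : w ≠ 0)
    (H : ∀ φ : IntertwiningMap ρ (ofMulAction ℂ (Equiv.Perm Ω) (BlockPartition Ω b)),
      psi Ω b a (φ w) = 0 → φ w = 0) :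
    Module.finrank ℂ (IntertwiningMap ρ (ofMulAction ℂ (Equiv.Perm Ω) (BlockPartition Ω b))) ≤
    Module.finrank ℂ (IntertwiningMap ρ (ofMulAction ℂ (Equiv.Perm Ω) (BlockPartition Ω a))) := by
  have hzero : ∀ {k : ℕ} (φ : IntertwiningMap ρ
      (ofMulAction ℂ (Equiv.Perm Ω) (BlockPartition Ω k))), φ w = 0 → φ = 0 := by
    intro k φ hφ
    rcases IsIrreducible.injective_or_eq_zero φ with h | h
    · exact absurd (h (hφ.trans (map_zero φ).symm)) hw
    · exact h
  haveI : Module.Finite ℂ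
      (IntertwiningMap ρ (ofMulAction ℂ (Equiv.Perm Ω) (BlockPartition Ω a))) := by
    let ev : IntertwiningMap ρ (ofMulAction ℂ (Equiv.Perm Ω) (BlockPartition Ω a)) →ₗ[ℂ]
        ℂ[BlockPartition Ω a] :=
      { toFun := fun φ => φ w
        map_add' := fun _ _ => rfl
        map_smul' := fun _ _ => rfl }
    apply Module.Finite.of_injective ev
    intro φ φ' h
    have : (φ - φ') w = 0 := by
      show φ w - φ' w = 0
      exact sub_eq_zero.mpr h
    exact sub_eq_zero.mp (hzero _ this)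
  apply LinearMap.finrank_le_finrank_of_injective
    (f := IntertwiningMap.llcomp ρ _ _ (psi Ω b a))
  intro φ φ' h
  have h1 : (psi Ω b a) ((φ - φ') w) = 0 := by
    have h2 : (psi Ω b a) (φ w) = (psi Ω b a) (φ' w) :=
      congrArg (fun χ : IntertwiningMap ρ
        (ofMulAction ℂ (Equiv.Perm Ω) (BlockPartition Ω a)) => χ w) h
    show (psi Ω b a) (φ w - φ' w) = 0
    rw [map_sub, h2, sub_self]
  exact sub_eq_zero.mp (hzero _ (H _ h1))

/-- Coordinate form of the statement that the canonical map kills no copy of `ρ`. -/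
theorem no_copy_in_kernel_of_key {a b : ℕ}
    {W : Type*} [AddCommGroup W] [Module ℂ W] (ρ : Representation ℂ (Equiv.Perm Ω) W)
    [ρ.IsIrreducible] (w : W) (hw : w ≠ 0)
    (H : ∀ φ : IntertwiningMap ρ (ofMulAction ℂ (Equiv.Perm Ω) (BlockPartition Ω b)),
      psi Ω b a (φ w) = 0 → φ w = 0)
    (φ : IntertwiningMap ρ (ofMulAction ℂ (Equiv.Perm Ω) (BlockPartition Ω b)))
    (hφ : ∀ (u : W) (Q : BlockPartition Ω a),
      ∑ P : BlockPartition Ω b, (if Transversal P Q then (φ u).coeff P else 0) = 0) :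
    φ = 0 := by
  have h1 : psi Ω b a (φ w) = 0 := by
    show psiLin Ω b a (φ w) = 0
    ext Q
    rw [psiLin_coeff]
    exact hφ w Q
  have h2 := H φ h1
  rcases IsIrreducible.injective_or_eq_zero φ with h | h
  · exact absurd (h (h2.trans (map_zero φ).symm)) hw
  · exact h

end Vale.Agent.P181
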