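import Mathlib

namespace Vale.Agent.P181

open Classical

variable {Ω : Type*} [Fintype Ω]

/-- the pointwise stabiliser of `T`, as a finset of permutations -/
noncomputable def stab (T : Finset Ω) : Finset (Equiv.Perm Ω) :=
  Finset.univ.filter (fun h => ∀ x ∈ T, h x = x)

theorem mem_stab {T : Finset Ω} {h : Equiv.Perm Ω} : h ∈ stab T ↔ ∀ x ∈ T, h x = x := by
  simp [stab]

/-- `v` is fixed by the pointwise stabiliser of `T` and killed by all the averaging operators
to the pointwise stabilisers of `T.erase x`. -/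
def IsK {V : Type*} [AddCommGroup V] [Module ℂ V] (π : Representation ℂ (Equiv.Perm Ω) V)
    (T : Finset Ω) (v : V) : Prop :=
  (∀ g : Equiv.Perm Ω, (∀ y ∈ T, g y = y) → π g v = v) ∧
  (∀ x ∈ T, ∑ z ∈ (T.erase x)ᶜ, π (Equiv.swap x z) v = 0)

/-- sum over the pointwise stabiliser of `T` -/
noncomputable def EH {V : Type*} [AddCommGroup V] [Module ℂ V]
    (π : Representation ℂ (Equiv.Perm Ω) V) (T : Finset Ω) (g : Equiv.Perm Ω) (v : V) : V :=
  ∑ h ∈ stab T, π (h * g) v

theorem sx_fixed {V : Type*} [AddCommGroup V] [Module ℂ V]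
    (π : Representation ℂ (Equiv.Perm Ω) V)
    (T : Finset Ω) (x : Ω) (v : V)
    (hv : ∀ g : Equiv.Perm Ω, (∀ y ∈ T, g y = y) → π g v = v)
    (k : Equiv.Perm Ω) (hk : ∀ y ∈ T.erase x, k y = y) :
    π k (∑ z ∈ (T.erase x)ᶜ, π (Equiv.swap x z) v) =
      ∑ z ∈ (T.erase x)ᶜ, π (Equiv.swap x z) v := by
  rw [map_sum]
  have hmem : ∀ z, z ∈ (T.erase x)ᶜ ↔ k z ∈ (T.erase x)ᶜ := by
    intro z
    rw [Finset.mem_compl, Finset.mem_compl, not_iff_not]
    constructor
    · intro hz
      rw [hk z hz]; exact hz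
    · intro hz
      have h1 := hk _ hz
      have h2 : k z = z := k.injective h1
      rw [← h2]; exact hz
  have h1 : ∀ z ∈ (T.erase x)ᶜ, π k (π (Equiv.swap x z) v) = π (Equiv.swap x (k z)) v := by
    intro z hz
    have hkz := (hmem z).mp hz
    rw [Finset.mem_compl] at hz hkz
    have h2 : k * Equiv.swap x z =
        Equiv.swap x (k z) * (Equiv.swap x (k z) * k * Equiv.swap x z) := by
      rw [← mul_assoc, ← mul_assoc, Equiv.swap_mul_self, one_mul]
    rw [← Module.End.mul_apply, ← map_mul, h2, map_mul, Module.End.mul_apply]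
    congr 1
    apply hv
    intro y hy
    simp only [Equiv.Perm.mul_apply]
    by_cases hyx : y = x
    · subst hyx
      rw [Equiv.swap_apply_left, Equiv.swap_apply_right]
    · have hy' : y ∈ T.erase x := Finset.mem_erase.mpr ⟨hyx, hy⟩
      have hyz : y ≠ z := fun h => hz (h ▸ hy')
      have hykz : y ≠ k z := fun h => hkz (h ▸ hy')
      rw [Equiv.swap_apply_of_ne_of_ne hyx hyz, hk y hy', Equiv.swap_apply_of_ne_of_ne hyx hykz]
  rw [Finset.sum_congr rfl h1]
  exact Finset.sum_equiv k hmem (fun z _ => rfl)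

theorem EH_stab_mul {V : Type*} [AddCommGroup V] [Module ℂ V]
    (π : Representation ℂ (Equiv.Perm Ω) V) (T : Finset Ω) (s g : Equiv.Perm Ω)
    (hs : ∀ x ∈ T, s x = x) (v : V) : EH π T (s * g) v = EH π T g v := by
  unfold EH
  apply Finset.sum_equiv (Equiv.mulRight s)
  · intro h
    rw [mem_stab, mem_stab]
    constructor
    · intro hh x hx
      simp only [Equiv.coe_mulRight, Equiv.Perm.mul_apply]
      rw [hs x hx, hh x hx]
    · intro hh x hx
      have := hh x hx
      simp only [Equiv.coe_mulRight, Equiv.Perm.mul_apply] at this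
      rwa [hs x hx] at this
  · intro h _
    simp only [Equiv.coe_mulRight, mul_assoc]

theorem EH_sum {V : Type*} [AddCommGroup V] [Module ℂ V]
    (π : Representation ℂ (Equiv.Perm Ω) V) (T : Finset Ω) (g : Equiv.Perm Ω)
    {ι : Type*} (s : Finset ι) (c : ι → ℂ) (k : ι → Equiv.Perm Ω) (v : V) :
    EH π T g (∑ i ∈ s, c i • π (k i) v) = ∑ i ∈ s, c i • EH π T (g * k i) v := by
  unfold EH
  simp only [map_sum, map_smul, Finset.smul_sum]
  rw [Finset.sum_comm]
  apply Finset.sum_congr rfl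
  intro i _
  apply Finset.sum_congr rfl
  intro h _
  rw [← Module.End.mul_apply, ← map_mul, mul_assoc]

theorem EH_rec {V : Type*} [AddCommGroup V] [Module ℂ V]
    (π : Representation ℂ (Equiv.Perm Ω) V) (T : Finset Ω) (f : V)
    (g : Equiv.Perm Ω) (x₀ : Ω)
    (hK : ∑ z ∈ (T.erase x₀)ᶜ, π (Equiv.swap x₀ z) f = 0) (hgx₀ : g x₀ ∉ T) :
    ((((T.erase x₀)ᶜ.filter (fun z => g z ∉ T)).card : ℕ) : ℂ) • EH π T g f +
      ∑ z ∈ (T.erase x₀)ᶜ.filter (fun z => g z ∈ T), EH π T (g * Equiv.swap x₀ z) f = 0 := by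
  have h1 : ∑ z ∈ (T.erase x₀)ᶜ, EH π T (g * Equiv.swap x₀ z) f = 0 := by
    have h2 := EH_sum π T g (T.erase x₀)ᶜ (fun _ => (1 : ℂ)) (fun z => Equiv.swap x₀ z) f
    simp only [one_smul] at h2
    rw [← h2, hK]
    simp [EH]
  rw [← Finset.sum_filter_add_sum_filter_not (T.erase x₀)ᶜ (fun z => g z ∈ T)] at h1
  rw [add_comm] at h1
  have h3 : ∀ z ∈ (T.erase x₀)ᶜ.filter (fun z => g z ∉ T),
      EH π T (g * Equiv.swap x₀ z) f = EH π T g f := by
    intro z hz
    rw [Finset.mem_filter] at hz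
    rw [Equiv.mul_swap_eq_swap_mul]
    apply EH_stab_mul
    intro y hy
    apply Equiv.swap_apply_of_ne_of_ne
    · intro h; exact hgx₀ (h ▸ hy)
    · intro h; exact hz.2 (h ▸ hy)
  rw [Finset.sum_congr rfl h3, Finset.sum_const] at h1
  rw [← h1, Nat.cast_smul_eq_nsmul]

theorem EH_of_preserves {V : Type*} [AddCommGroup V] [Module ℂ V]
    (π : Representation ℂ (Equiv.Perm Ω) V) (T : Finset Ω) (f : V)
    (hf : ∀ g : Equiv.Perm Ω, (∀ y ∈ T, g y = y) → π g f = f)
    (g : Equiv.Perm Ω) (hg : ∀ x ∈ T, g x ∈ T) :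
    EH π T g f = (((stab T).card : ℕ) : ℂ) • π g f := by
  unfold EH
  have h1 : ∀ h ∈ stab T, π (h * g) f = π g f := by
    intro h hh
    rw [mem_stab] at hh
    have h2 : h * g = g * (g⁻¹ * h * g) := by group
    rw [h2, map_mul, Module.End.mul_apply]
    congr 1
    apply hf
    intro y hy
    simp only [Equiv.Perm.mul_apply]
    rw [hh _ (hg y hy)]
    simp
  rw [Finset.sum_congr rfl h1, Finset.sum_const, Nat.cast_smul_eq_nsmul]

theorem EH_comm {V₁ V₂ : Type*} [AddCommGroup V₁] [Module ℂ V₁] [AddCommGroup V₂] [Module ℂ V₂]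
    (π₁ : Representation ℂ (Equiv.Perm Ω) V₁) (π₂ : Representation ℂ (Equiv.Perm Ω) V₂)
    (T : Finset Ω) (θ : V₁ →ₗ[ℂ] V₂) (f : V₁) (hf : IsK π₁ T f) (hθf : IsK π₂ T (θ f))
    (hθeq : ∀ g : Equiv.Perm Ω, (∀ x ∈ T, g x ∈ T) → θ (π₁ g f) = π₂ g (θ f)) :
    ∀ (n : ℕ) (g : Equiv.Perm Ω), (Finset.univ.filter (fun z => z ∉ T ∧ g z ∈ T)).card = n →
      EH π₂ T g (θ f) = θ (EH π₁ T g f) := by
  intro n
  induction n with
  | zero =>
    intro g hg
    rw [Finset.card_eq_zero, Finset.filter_eq_empty_iff] at hg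
    have himg : Tᶜ.image g = Tᶜ := by
      apply Finset.eq_of_subset_of_card_le
      · intro y hy
        rw [Finset.mem_image] at hy
        obtain ⟨z, hz, rfl⟩ := hy
        rw [Finset.mem_compl] at hz ⊢
        intro h
        exact hg (Finset.mem_univ z) ⟨hz, h⟩
      · rw [Finset.card_image_of_injective _ g.injective]
    have hpres : ∀ x ∈ T, g x ∈ T := by
      intro x hx
      by_contra h
      have h1 : g x ∈ Tᶜ.image g := by rw [himg]; exact Finset.mem_compl.mpr h
      rw [Finset.mem_image] at h1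
      obtain ⟨z, hz, hzx⟩ := h1
      rw [g.injective hzx] at hz
      exact (Finset.mem_compl.mp hz) hx
    rw [EH_of_preserves π₂ T _ hθf.1 g hpres, EH_of_preserves π₁ T _ hf.1 g hpres, map_smul,
      hθeq g hpres]
  | succ n ih =>
    intro g hg
    have hne : (Finset.univ.filter (fun z => z ∉ T ∧ g z ∈ T)).Nonempty := by
      rw [← Finset.card_pos]; omega
    obtain ⟨z₀, hz₀⟩ := hne
    rw [Finset.mem_filter] at hz₀
    have hex : ∃ x₀ ∈ T, g x₀ ∉ T := by
      by_contra hcon
      push Not at hcon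
      have himg : T.image g = T := by
        apply Finset.eq_of_subset_of_card_le
        · intro y hy
          rw [Finset.mem_image] at hy
          obtain ⟨z, hz, rfl⟩ := hy
          exact hcon z hz
        · rw [Finset.card_image_of_injective _ g.injective]
      have h1 : g z₀ ∈ T.image g := by rw [himg]; exact hz₀.2.2
      rw [Finset.mem_image] at h1
      obtain ⟨x, hx, hxz⟩ := h1
      rw [g.injective hxz] at hx
      exact hz₀.2.1 hx
    obtain ⟨x₀, hx₀, hgx₀⟩ := hex
    have r1 := EH_rec π₁ T f g x₀ (hf.2 x₀ hx₀) hgx₀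
    have r2 := EH_rec π₂ T (θ f) g x₀ (hθf.2 x₀ hx₀) hgx₀
    have hB : ∀ z ∈ (T.erase x₀)ᶜ.filter (fun z => g z ∈ T),
        EH π₂ T (g * Equiv.swap x₀ z) (θ f) = θ (EH π₁ T (g * Equiv.swap x₀ z) f) := by
      intro z hz
      rw [Finset.mem_filter, Finset.mem_compl] at hz
      have hzx : z ≠ x₀ := fun h => hgx₀ (h ▸ hz.2)
      have hzT : z ∉ T := fun h => hz.1 (Finset.mem_erase.mpr ⟨hzx, h⟩)
      apply ih
      have hset : (Finset.univ.filter (fun z' => z' ∉ T ∧ (g * Equiv.swap x₀ z) z' ∈ T)) =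
          (Finset.univ.filter (fun z' => z' ∉ T ∧ g z' ∈ T)).erase z := by
        ext z'
        rw [Finset.mem_filter, Finset.mem_erase, Finset.mem_filter]
        simp only [Finset.mem_univ, true_and, Equiv.Perm.mul_apply]
        by_cases hz' : z' = z
        · subst hz'
          rw [Equiv.swap_apply_right]
          simp [hgx₀]
        · by_cases hz'T : z' ∈ T
          · simp [hz'T]
          · have : z' ≠ x₀ := fun h => hz'T (h ▸ hx₀)
            rw [Equiv.swap_apply_of_ne_of_ne this hz']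
            simp [hz']
      rw [hset, Finset.card_erase_of_mem, hg]
      · rfl
      · simp only [Finset.mem_filter, Finset.mem_univ, true_and]
        exact ⟨hzT, hz.2⟩
    rw [Finset.sum_congr rfl hB, ← map_sum] at r2
    have r3 := congrArg θ r1
    rw [map_add, map_smul, map_zero] at r3
    have r4 : ((((T.erase x₀)ᶜ.filter (fun z => g z ∉ T)).card : ℕ) : ℂ) • EH π₂ T g (θ f) =
        ((((T.erase x₀)ᶜ.filter (fun z => g z ∉ T)).card : ℕ) : ℂ) • θ (EH π₁ T g f) := by
      have := r2.trans r3.symm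
      exact add_right_cancel this
    have hcard : ((((T.erase x₀)ᶜ.filter (fun z => g z ∉ T)).card : ℕ) : ℂ) ≠ 0 := by
      rw [Nat.cast_ne_zero]
      apply Finset.card_ne_zero_of_mem (a := x₀)
      rw [Finset.mem_filter, Finset.mem_compl]
      exact ⟨fun h => (Finset.mem_erase.mp h).1 rfl, hgx₀⟩
    exact smul_right_injective _ hcard r4

end Vale.Agent.P181
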