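import Mathlib
import Vale.Agent.P181.V1

namespace Vale.Agent.P181

open Classical Representation

variable {Ω : Type*} [Fintype Ω]

theorem exists_minimal_support {W : Type*} [AddCommGroup W] [Module ℂ W]
    (ρ : Representation ℂ (Equiv.Perm Ω) W) (T : Finset Ω)
    (h : ∃ w : W, w ≠ 0 ∧ ∀ g : Equiv.Perm Ω, (∀ x ∈ T, g x = x) → ρ g w = w) :
    ∃ T' ⊆ T, (∃ w : W, w ≠ 0 ∧ ∀ g : Equiv.Perm Ω, (∀ x ∈ T', g x = x) → ρ g w = w) ∧
      ∀ x ∈ T', ∀ v : W, (∀ g : Equiv.Perm Ω, (∀ y ∈ T'.erase x, g y = y) → ρ g v = v) → v = 0 := by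
  induction T using Finset.strongInduction with
  | H T ih =>
    by_cases hmin : ∀ x ∈ T, ∀ v : W,
        (∀ g : Equiv.Perm Ω, (∀ y ∈ T.erase x, g y = y) → ρ g v = v) → v = 0
    · exact ⟨T, Finset.Subset.refl T, h, hmin⟩
    · push Not at hmin
      obtain ⟨x, hx, v, hv, hv0⟩ := hmin
      obtain ⟨T', hT', h1, h2⟩ := ih (T.erase x) (Finset.erase_ssubset hx) ⟨v, hv0, hv⟩
      exact ⟨T', hT'.trans (Finset.erase_subset x T), h1, h2⟩

theorem isK_of_minimal {W : Type*} [AddCommGroup W] [Module ℂ W]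
    (ρ : Representation ℂ (Equiv.Perm Ω) W) (T : Finset Ω) (w : W)
    (hw : ∀ g : Equiv.Perm Ω, (∀ x ∈ T, g x = x) → ρ g w = w)
    (hmin : ∀ x ∈ T, ∀ v : W,
      (∀ g : Equiv.Perm Ω, (∀ y ∈ T.erase x, g y = y) → ρ g v = v) → v = 0) :
    IsK ρ T w :=
  ⟨hw, fun x hx => hmin x hx _ (fun k hk => sx_fixed ρ T x w hw k hk)⟩

theorem isK_map {W V : Type*} [AddCommGroup W] [Module ℂ W] [AddCommGroup V] [Module ℂ V]
    {ρ : Representation ℂ (Equiv.Perm Ω) W} {π : Representation ℂ (Equiv.Perm Ω) V}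
    (φ : IntertwiningMap ρ π) (T : Finset Ω) (w : W) (hw : IsK ρ T w) : IsK π T (φ w) := by
  refine ⟨fun g hg => ?_, fun x hx => ?_⟩
  · rw [← IntertwiningMap.isIntertwining, hw.1 g hg]
  · have h1 := congrArg φ (hw.2 x hx)
    rw [map_sum, map_zero] at h1
    rw [← h1]
    apply Finset.sum_congr rfl
    intro z _
    rw [IntertwiningMap.isIntertwining]

theorem sum_shift {V : Type*} [AddCommGroup V] [Module ℂ V]
    (π : Representation ℂ (Equiv.Perm Ω) V) (v : V) (r : Equiv.Perm Ω → ℂ) (g : Equiv.Perm Ω) :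
    ∑ k : Equiv.Perm Ω, r (g⁻¹ * k) • π k v = π g (∑ k : Equiv.Perm Ω, r k • π k v) := by
  rw [map_sum]
  symm
  apply Finset.sum_equiv (Equiv.mulLeft g)
  · intro _; simp
  · intro k _
    simp only [Equiv.coe_mulLeft, inv_mul_cancel_left, map_smul, map_mul, Module.End.mul_apply]

theorem exists_intertwining {W V : Type*} [AddCommGroup W] [Module ℂ W] [AddCommGroup V]
    [Module ℂ V] (ρ : Representation ℂ (Equiv.Perm Ω) W) [ρ.IsIrreducible]
    (π : Representation ℂ (Equiv.Perm Ω) V) (k₀ : W) (hk₀ : k₀ ≠ 0) (v : V)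
    (hann : ∀ r : Equiv.Perm Ω → ℂ, ∑ g, r g • ρ g k₀ = 0 → ∑ g, r g • π g v = 0) :
    ∃ φ : IntertwiningMap ρ π, φ k₀ = v := by
  let p : (Equiv.Perm Ω → ℂ) →ₗ[ℂ] W := Fintype.linearCombination ℂ (fun g => ρ g k₀)
  let q : (Equiv.Perm Ω → ℂ) →ₗ[ℂ] V := Fintype.linearCombination ℂ (fun g => π g v)
  have hp : ∀ r, p r = ∑ g, r g • ρ g k₀ := fun r => Fintype.linearCombination_apply ℂ _ r
  have hq : ∀ r, q r = ∑ g, r g • π g v := fun r => Fintype.linearCombination_apply ℂ _ r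
  have hpsh : ∀ (g : Equiv.Perm Ω) r, p (fun k => r (g⁻¹ * k)) = ρ g (p r) := by
    intro g r
    rw [hp, hp, sum_shift]
  have hqsh : ∀ (g : Equiv.Perm Ω) r, q (fun k => r (g⁻¹ * k)) = π g (q r) := by
    intro g r
    rw [hq, hq, sum_shift]
  have hp1 : p (Pi.single 1 1) = k₀ := by
    rw [hp, Finset.sum_eq_single 1]
    · simp
    · intro g _ hg
      simp [Pi.single_apply, hg]
    · simp
  have hq1 : q (Pi.single 1 1) = v := by
    rw [hq, Finset.sum_eq_single 1]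
    · simp
    · intro g _ hg
      simp [Pi.single_apply, hg]
    · simp
  let S : Subrepresentation ρ :=
    { toSubmodule := LinearMap.range p
      apply_mem_toSubmodule := by
        rintro g _ ⟨r, rfl⟩
        exact ⟨_, hpsh g r⟩ }
  have hS : S = ⊤ := by
    rcases IsSimpleOrder.eq_bot_or_eq_top S with h | h
    · exfalso
      have h1 : k₀ ∈ S.toSubmodule := ⟨_, hp1⟩
      rw [h] at h1
      exact hk₀ h1
    · exact h
  have hsurj : LinearMap.range p = ⊤ := by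
    have : S.toSubmodule = (⊤ : Subrepresentation ρ).toSubmodule := by rw [hS]
    exact this
  obtain ⟨s, hs⟩ := LinearMap.exists_rightInverse_of_surjective p hsurj
  have hs' : ∀ w, p (s w) = w := fun w => LinearMap.congr_fun hs w
  have hkey : ∀ r, q (s (p r)) = q r := by
    intro r
    have h1 : p (s (p r) - r) = 0 := by rw [map_sub, hs', sub_self]
    have h2 : q (s (p r) - r) = 0 := by
      rw [hq]
      apply hann
      rw [← hp]
      exact h1
    rw [map_sub] at h2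
    exact sub_eq_zero.mp h2
  refine ⟨⟨q ∘ₗ s, ?_⟩, ?_⟩
  · intro g
    ext w
    simp only [LinearMap.comp_apply]
    have h1 : ρ g w = p (fun k => (s w) (g⁻¹ * k)) := by rw [hpsh, hs']
    rw [h1, hkey, hqsh]
  · show q (s k₀) = v
    rw [← hp1, hkey, hq1]

end Vale.Agent.P181
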