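import Mathlib
import Vale.Agent.P181.Key2

namespace Vale.Agent.P181

open Classical

variable {Ω : Type*} [Fintype Ω]

/-- the set partition of `T` induced by `P` -/
def res (T : Finset Ω) {k : ℕ} (P : BlockPartition Ω k) : Setoid {x // x ∈ T} :=
  P.rel.comap Subtype.val

theorem res_eq_iff (T : Finset Ω) {k l : ℕ} (P : BlockPartition Ω k) (Q : BlockPartition Ω l) :
    res T P = res T Q ↔ ∀ x ∈ T, ∀ y ∈ T, (P.rel x y ↔ Q.rel x y) := by
  constructor
  · intro h x hx y hy
    have : (res T P) ⟨x, hx⟩ ⟨y, hy⟩ ↔ (res T Q) ⟨x, hx⟩ ⟨y, hy⟩ := by rw [h]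
    exact this
  · intro h
    ext t t'
    exact h t.1 t.2 t'.1 t'.2

theorem inv_fix {T : Finset Ω} {g : Equiv.Perm Ω} (hg : ∀ x ∈ T, g x = x) :
    ∀ x ∈ T, g⁻¹ x = x := by
  intro x hx
  rw [Equiv.Perm.inv_eq_iff_eq]
  exact (hg x hx).symm

theorem inv_preserves {T : Finset Ω} {g : Equiv.Perm Ω} (hg : ∀ x ∈ T, g x ∈ T) :
    ∀ x ∈ T, g⁻¹ x ∈ T := by
  have himg : T.image g = T := by
    apply Finset.eq_of_subset_of_card_le
    · intro y hy
      rw [Finset.mem_image] at hy
      obtain ⟨z, hz, rfl⟩ := hy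
      exact hg z hz
    · rw [Finset.card_image_of_injective _ g.injective]
  intro x hx
  rw [← himg, Finset.mem_image] at hx
  obtain ⟨z, hz, rfl⟩ := hx
  simpa using hz

theorem res_smul_of_fix (T : Finset Ω) {k : ℕ} (g : Equiv.Perm Ω) (hg : ∀ x ∈ T, g x = x)
    (P : BlockPartition Ω k) : res T (g • P) = res T P := by
  rw [res_eq_iff]
  intro x hx y hy
  rw [smul_rel, inv_fix hg x hx, inv_fix hg y hy]

theorem res_smul_eq_iff (T : Finset Ω) {k l : ℕ} (g : Equiv.Perm Ω) (hg : ∀ x ∈ T, g x ∈ T)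
    (P : BlockPartition Ω k) (Q : BlockPartition Ω l) :
    res T (g • P) = res T Q ↔ res T P = res T (g⁻¹ • Q) := by
  rw [res_eq_iff, res_eq_iff]
  constructor
  · intro h x hx y hy
    have h1 := h (g x) (hg x hx) (g y) (hg y hy)
    rw [smul_rel] at h1
    rw [smul_rel]
    simpa using h1
  · intro h x hx y hy
    have h1 := h (g⁻¹ x) (inv_preserves hg x hx) (g⁻¹ y) (inv_preserves hg y hy)
    rw [smul_rel] at h1
    rw [smul_rel]
    simpa using h1

/-- total mass of `f` on the set partitions inducing `s` on `T` -/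
noncomputable def mass (T : Finset Ω) {k : ℕ} (f : BlockPartition Ω k → ℂ)
    (s : Setoid {x // x ∈ T}) : ℂ :=
  ∑ P : BlockPartition Ω k, if res T P = s then f P else 0

/-- number of set partitions inducing `s` on `T` -/
noncomputable def cnt (T : Finset Ω) (k : ℕ) (s : Setoid {x // x ∈ T}) : ℕ :=
  (Finset.univ.filter (fun Q : BlockPartition Ω k => res T Q = s)).card

/-- mass transport -/
noncomputable def thetaFun (T : Finset Ω) {k : ℕ} (l : ℕ) (f : BlockPartition Ω k → ℂ) :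
    BlockPartition Ω l → ℂ :=
  fun Q => mass T f (res T Q) / (cnt T l (res T Q) : ℂ)

theorem cnt_ne_zero (T : Finset Ω) {k : ℕ} (P : BlockPartition Ω k) :
    (cnt T k (res T P) : ℂ) ≠ 0 := by
  rw [Nat.cast_ne_zero]
  apply Finset.card_ne_zero_of_mem (a := P)
  simp

theorem mass_of_const (T : Finset Ω) {k : ℕ} (f : BlockPartition Ω k → ℂ)
    (s : Setoid {x // x ∈ T}) (c : ℂ) (h : ∀ P, res T P = s → f P = c) :
    mass T f s = (cnt T k s : ℂ) * c := by
  unfold mass cnt
  rw [← Finset.sum_filter, Finset.sum_congr rfl (g := fun _ => c), Finset.sum_const,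
    nsmul_eq_mul]
  intro P hP
  rw [Finset.mem_filter] at hP
  exact h P hP.2

theorem mass_theta (T : Finset Ω) {k l : ℕ}
    (hreal : ∀ P : BlockPartition Ω k, ∃ Q : BlockPartition Ω l, res T Q = res T P)
    (f : BlockPartition Ω k → ℂ) (s : Setoid {x // x ∈ T}) :
    mass T (thetaFun T l f) s = mass T f s := by
  by_cases hs : ∃ Q : BlockPartition Ω l, res T Q = s
  · obtain ⟨Q0, hQ0⟩ := hs
    have hc : (cnt T l s : ℂ) ≠ 0 := hQ0 ▸ cnt_ne_zero T Q0
    rw [mass_of_const T (thetaFun T l f) s (mass T f s / (cnt T l s : ℂ))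
      (fun Q hQ => by simp only [thetaFun, hQ])]
    field_simp
  · have h1 : mass T (thetaFun T l f) s = 0 :=
      Finset.sum_eq_zero (fun Q _ => if_neg (fun h => hs ⟨Q, h⟩))
    have h2 : mass T f s = 0 :=
      Finset.sum_eq_zero (fun P _ => if_neg (fun h => by
        obtain ⟨Q, hQ⟩ := hreal P
        exact hs ⟨Q, hQ.trans h⟩))
    rw [h1, h2]

theorem mass_smul_of_fix (T : Finset Ω) {k : ℕ} (g : Equiv.Perm Ω) (hg : ∀ x ∈ T, g x = x)
    (f : BlockPartition Ω k → ℂ) (s : Setoid {x // x ∈ T}) :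
    mass T (fun P => f (g⁻¹ • P)) s = mass T f s := by
  unfold mass
  rw [← Equiv.sum_comp (MulAction.toPerm g)]
  apply Finset.sum_congr rfl
  intro P _
  simp only [MulAction.toPerm_apply, inv_smul_smul, res_smul_of_fix T g hg]

theorem mass_sum (T : Finset Ω) {k : ℕ} {ι : Type*} (Z : Finset ι)
    (f : ι → BlockPartition Ω k → ℂ) (s : Setoid {x // x ∈ T}) :
    mass T (fun P => ∑ z ∈ Z, f z P) s = ∑ z ∈ Z, mass T (f z) s := by
  unfold mass
  rw [Finset.sum_comm]
  apply Finset.sum_congr rfl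
  intro P _
  split_ifs
  · rfl
  · simp

/-- restriction of a set partition of `T` to a subset -/
def restr {T' T : Finset Ω} (h : T' ⊆ T) (s : Setoid {x // x ∈ T}) : Setoid {x // x ∈ T'} :=
  s.comap (fun t => ⟨t.1, h t.2⟩)

theorem restr_res {T' T : Finset Ω} (h : T' ⊆ T) {k : ℕ} (P : BlockPartition Ω k) :
    restr h (res T P) = res T' P := rfl

theorem mass_restr {T' T : Finset Ω} (h : T' ⊆ T) {k : ℕ} (f : BlockPartition Ω k → ℂ)
    (s' : Setoid {x // x ∈ T'}) :
    mass T' f s' = ∑ s : Setoid {x // x ∈ T}, if restr h s = s' then mass T f s else 0 := by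
  unfold mass
  have h1 : ∀ s : Setoid {x // x ∈ T},
      (if restr h s = s' then ∑ P : BlockPartition Ω k, (if res T P = s then f P else 0) else 0) =
      ∑ P : BlockPartition Ω k, (if res T P = s then (if restr h s = s' then f P else 0) else 0) := by
    intro s
    split_ifs <;> simp
  rw [Finset.sum_congr rfl (fun s _ => h1 s), Finset.sum_comm]
  apply Finset.sum_congr rfl
  intro P _
  rw [Finset.sum_ite_eq, if_pos (Finset.mem_univ _), restr_res]

theorem eq_zero_of_mass_eq_zero {a b : ℕ} (hb : 0 < b) (hΩ : Fintype.card Ω = a * b)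
    (T : Finset Ω) (f : BlockPartition Ω b → ℂ)
    (hinv : ∀ g : Equiv.Perm Ω, (∀ x ∈ T, g x = x) → ∀ P, f (g • P) = f P)
    (hmass : ∀ s, mass T f s = 0) : ∀ P, f P = 0 := by
  intro P0
  have h1 := mass_of_const T f (res T P0) (f P0)
    (fun P hP => lemmaW hb hΩ T f hinv P P0 hP)
  rw [hmass] at h1
  rcases mul_eq_zero.mp h1.symm with h | h
  · exact absurd h (cnt_ne_zero T P0)
  · exact h

theorem theta_smul_of_fix (T : Finset Ω) {k l : ℕ} (g : Equiv.Perm Ω) (hg : ∀ x ∈ T, g x = x)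
    (f : BlockPartition Ω k → ℂ) (Q : BlockPartition Ω l) :
    thetaFun T l f (g • Q) = thetaFun T l f Q := by
  simp only [thetaFun, res_smul_of_fix T g hg]

theorem theta_equivariant (T : Finset Ω) {k l : ℕ} (g : Equiv.Perm Ω) (hg : ∀ x ∈ T, g x ∈ T)
    (f : BlockPartition Ω k → ℂ) (Q : BlockPartition Ω l) :
    thetaFun T l (fun P => f (g⁻¹ • P)) Q = thetaFun T l f (g⁻¹ • Q) := by
  unfold thetaFun
  congr 1
  · unfold mass
    rw [← Equiv.sum_comp (MulAction.toPerm g)]
    apply Finset.sum_congr rfl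
    intro P _
    simp only [MulAction.toPerm_apply, inv_smul_smul, res_smul_eq_iff T g hg]
  · congr 1
    unfold cnt
    apply Finset.card_equiv (MulAction.toPerm g⁻¹)
    intro Q'
    simp only [Finset.mem_filter, Finset.mem_univ, true_and, MulAction.toPerm_apply]
    rw [← res_smul_eq_iff T g hg, smul_inv_smul]

theorem exists_same_res {a b c d : ℕ} (hb : 0 < b) (hΩ : Fintype.card Ω = a * b)
    (hΩ' : Fintype.card Ω = c * d) (hac : a ≤ c) (T : Finset Ω) (hT : T.card ≤ d)
    (P : BlockPartition Ω b) : ∃ Q : BlockPartition Ω d, res T Q = res T P := by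
  obtain ⟨p, hp, _⟩ := exists_labelling hb hΩ P
  obtain ⟨idx⟩ := Function.Embedding.nonempty_of_card_le (α := {x // x ∈ T}) (β := Fin d)
    (by simpa using hT)
  let e0 : Ω ≃ Fin d × Fin c := Fintype.equivOfCardEq (by simp [hΩ', mul_comm])
  obtain ⟨E, hE⟩ := exists_equiv_extending e0 (Subtype.val : {x // x ∈ T} → Ω)
    (fun t => (idx t, Fin.castLE hac (p t.1))) Subtype.val_injective
    (fun t t' h => idx.injective (congrArg Prod.fst h))
  have hbij : Bij (fun x => (E x).1) (fun x => (E x).2) := E.bijective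
  refine ⟨ofFun (fun x => (E x).2) (card_fiber_snd hbij), ?_⟩
  rw [res_eq_iff]
  intro x hx y hy
  show (E x).2 = (E y).2 ↔ _
  have h1 := hE ⟨x, hx⟩
  have h2 := hE ⟨y, hy⟩
  simp only at h1 h2
  rw [h1, h2, ← hp]
  simp

end Vale.Agent.P181
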