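import Mathlib
import Vale.Agent.P181.V2
import Vale.Agent.P181.V3
import Vale.Agent.P181.Rep

namespace Vale.Agent.P181

open Classical Representation
open scoped MonoidAlgebra ComplexConjugate

variable {Ω : Type*} [Fintype Ω]

theorem coeff_sum_smul {k : ℕ} {ι : Type*} (s : Finset ι) (c : ι → ℂ) (g : ι → Equiv.Perm Ω)
    (m : ℂ[BlockPartition Ω k]) (P : BlockPartition Ω k) :
    (∑ i ∈ s, c i • ofMulAction ℂ (Equiv.Perm Ω) (BlockPartition Ω k) (g i) m).coeff P =
      ∑ i ∈ s, c i * m.coeff ((g i)⁻¹ • P) := by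
  rw [← MonoidAlgebra.coeffLinearEquiv_apply (R := ℂ), map_sum, Finsupp.finsetSum_apply]
  apply Finset.sum_congr rfl
  intro i _
  rw [map_smul, MonoidAlgebra.coeffLinearEquiv_apply, Finsupp.smul_apply, coeff_ofMulAction,
    smul_eq_mul]

theorem coeff_sum {k : ℕ} {ι : Type*} (s : Finset ι) (g : ι → Equiv.Perm Ω)
    (m : ℂ[BlockPartition Ω k]) (P : BlockPartition Ω k) :
    (∑ i ∈ s, ofMulAction ℂ (Equiv.Perm Ω) (BlockPartition Ω k) (g i) m).coeff P =
      ∑ i ∈ s, m.coeff ((g i)⁻¹ • P) := by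
  have := coeff_sum_smul s (fun _ => 1) g m P
  simpa using this

theorem hermitian_aux {Y : Type*} [Fintype Y] [MulAction (Equiv.Perm Ω) Y]
    (H : Finset (Equiv.Perm Ω)) (hH : H.Nonempty)
    (F : Y → ℂ) (hF : ∀ h ∈ H, ∀ Q, F (h⁻¹ • Q) = F Q) (r : Equiv.Perm Ω → ℂ)
    (U : Y → ℂ) (hU : ∀ Q, U Q = ∑ k, r k * F (k⁻¹ • Q))
    (hz : ∀ (k : Equiv.Perm Ω) Q, ∑ h ∈ H, U (k • h⁻¹ • Q) = 0) : ∀ Q, U Q = 0 := by
  have hA : ∀ k : Equiv.Perm Ω, ∑ Q, U (k • Q) * conj (F Q) = 0 := by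
    intro k
    have h1 : (H.card : ℂ) * ∑ Q, U (k • Q) * conj (F Q) =
        ∑ h ∈ H, ∑ Q, U (k • h⁻¹ • Q) * conj (F Q) := by
      rw [← nsmul_eq_mul, ← Finset.sum_const]
      apply Finset.sum_congr rfl
      intro h hh
      rw [← Equiv.sum_comp (MulAction.toPerm h⁻¹)]
      apply Finset.sum_congr rfl
      intro Q _
      simp only [MulAction.toPerm_apply]
      rw [hF h hh]
    rw [Finset.sum_comm] at h1
    have h2 : ∀ Q, ∑ h ∈ H, U (k • h⁻¹ • Q) * conj (F Q) = 0 := by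
      intro Q
      rw [← Finset.sum_mul, hz, zero_mul]
    rw [Finset.sum_congr rfl (fun Q _ => h2 Q), Finset.sum_const_zero] at h1
    have hc : (H.card : ℂ) ≠ 0 := by
      rw [Nat.cast_ne_zero]
      exact Finset.card_ne_zero.mpr hH
    exact (mul_eq_zero.mp h1).resolve_left hc
  have hS : ∑ Q, U Q * conj (U Q) = 0 := by
    have h1 : ∀ Q, U Q * conj (U Q) = ∑ k, conj (r k) * (U Q * conj (F (k⁻¹ • Q))) := by
      intro Q
      have h2 : conj (U Q) = ∑ k, conj (r k) * conj (F (k⁻¹ • Q)) := by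
        rw [hU Q, map_sum]
        simp only [map_mul]
      rw [h2, Finset.mul_sum]
      apply Finset.sum_congr rfl
      intro k _
      ring
    rw [Finset.sum_congr rfl (fun Q _ => h1 Q), Finset.sum_comm]
    apply Finset.sum_eq_zero
    intro k _
    rw [← Finset.mul_sum]
    have h3 : ∑ Q, U Q * conj (F (k⁻¹ • Q)) = ∑ Q, U (k • Q) * conj (F Q) := by
      rw [← Equiv.sum_comp (MulAction.toPerm k)]
      apply Finset.sum_congr rfl
      intro Q _
      simp only [MulAction.toPerm_apply, inv_smul_smul]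
    rw [h3, hA k, mul_zero]
  have hS' : ∑ Q, Complex.normSq (U Q) = 0 := by
    have h1 : ((∑ Q, Complex.normSq (U Q) : ℝ) : ℂ) = 0 := by
      rw [Complex.ofReal_sum, ← hS]
      apply Finset.sum_congr rfl
      intro Q _
      rw [Complex.mul_conj]
    exact_mod_cast h1
  intro Q
  have h2 := (Finset.sum_eq_zero_iff_of_nonneg (fun Q _ => Complex.normSq_nonneg (U Q))).mp hS' Q
    (Finset.mem_univ Q)
  exact Complex.normSq_eq_zero.mp h2

theorem one_mem_stab (T : Finset Ω) : (1 : Equiv.Perm Ω) ∈ stab T := by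
  rw [mem_stab]; intro x _; rfl

theorem eq_zero_of_EH_eq_zero {l : ℕ} (T : Finset Ω) (f' : ℂ[BlockPartition Ω l])
    (hf' : ∀ g : Equiv.Perm Ω, (∀ x ∈ T, g x = x) →
      ofMulAction ℂ (Equiv.Perm Ω) (BlockPartition Ω l) g f' = f')
    (r : Equiv.Perm Ω → ℂ)
    (hu : ∀ g, EH (ofMulAction ℂ (Equiv.Perm Ω) (BlockPartition Ω l)) T g
      (∑ k, r k • ofMulAction ℂ (Equiv.Perm Ω) (BlockPartition Ω l) k f') = 0) :
    ∑ k, r k • ofMulAction ℂ (Equiv.Perm Ω) (BlockPartition Ω l) k f' = 0 := by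
  set u := ∑ k, r k • ofMulAction ℂ (Equiv.Perm Ω) (BlockPartition Ω l) k f' with hudef
  have h := hermitian_aux (stab T) ⟨1, one_mem_stab T⟩ (fun Q => f'.coeff Q)
    (by
      intro h hh Q
      rw [mem_stab] at hh
      have h1 := congrArg (fun z => z.coeff Q) (hf' h hh)
      simp only [coeff_ofMulAction] at h1
      exact h1) r (fun Q => u.coeff Q)
    (by
      intro Q
      exact coeff_sum_smul Finset.univ r (fun k => k) f' Q)
    (by
      intro k Q
      have h1 := congrArg (fun z => z.coeff Q) (hu k⁻¹)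
      unfold EH at h1
      rw [coeff_sum] at h1
      simp only [mul_inv_rev, inv_inv, mul_smul] at h1
      exact h1)
  ext Q
  exact h Q

/-- mass transport as a linear map between the permutation modules -/
noncomputable def thetaLin (T : Finset Ω) (k l : ℕ) :
    ℂ[BlockPartition Ω k] →ₗ[ℂ] ℂ[BlockPartition Ω l] :=
  (MonoidAlgebra.coeffLinearEquiv ℂ).symm.toLinearMap ∘ₗ
    (Finsupp.linearEquivFunOnFinite ℂ ℂ (BlockPartition Ω l)).symm.toLinearMap ∘ₗ
    (Matrix.mulVecLin (Matrix.of (fun (Q : BlockPartition Ω l) (P : BlockPartition Ω k) =>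
      if res T P = res T Q then (1 : ℂ) / (cnt T l (res T Q) : ℂ) else 0))) ∘ₗ
    (Finsupp.linearEquivFunOnFinite ℂ ℂ (BlockPartition Ω k)).toLinearMap ∘ₗ
    (MonoidAlgebra.coeffLinearEquiv ℂ).toLinearMap

theorem thetaLin_coeff (T : Finset Ω) (k l : ℕ) (m : ℂ[BlockPartition Ω k])
    (Q : BlockPartition Ω l) :
    (thetaLin T k l m).coeff Q = thetaFun T l (fun P => m.coeff P) Q := by
  have h1 : (thetaLin T k l m).coeff Q = ∑ P : BlockPartition Ω k,
      (if res T P = res T Q then (1 : ℂ) / (cnt T l (res T Q) : ℂ) else 0) * m.coeff P := by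
    simp [thetaLin, Matrix.mulVec, dotProduct]
  rw [h1]
  simp only [thetaFun, mass, Finset.sum_div]
  apply Finset.sum_congr rfl
  intro P _
  by_cases h : res T P = res T Q
  · rw [if_pos h, if_pos h]
    ring
  · rw [if_neg h, if_neg h]
    ring

end Vale.Agent.P181
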