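import Mathlib
import Vale.Agent.P181.V4

namespace Vale.Agent.P181

open Classical Representation
open scoped MonoidAlgebra

variable {Ω : Type*} [Fintype Ω]

theorem thetaLin_fixed (T : Finset Ω) (k l : ℕ) (m : ℂ[BlockPartition Ω k])
    (g : Equiv.Perm Ω) (hg : ∀ x ∈ T, g x = x) :
    ofMulAction ℂ (Equiv.Perm Ω) (BlockPartition Ω l) g (thetaLin T k l m) = thetaLin T k l m := by
  ext Q
  rw [coeff_ofMulAction, thetaLin_coeff, thetaLin_coeff, theta_smul_of_fix T g⁻¹ (inv_fix hg)]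

theorem thetaLin_equivariant (T : Finset Ω) (k l : ℕ) (m : ℂ[BlockPartition Ω k])
    (g : Equiv.Perm Ω) (hg : ∀ x ∈ T, g x ∈ T) :
    thetaLin T k l (ofMulAction ℂ (Equiv.Perm Ω) (BlockPartition Ω k) g m) =
      ofMulAction ℂ (Equiv.Perm Ω) (BlockPartition Ω l) g (thetaLin T k l m) := by
  ext Q
  rw [coeff_ofMulAction, thetaLin_coeff, thetaLin_coeff, ← theta_equivariant T g hg]
  simp only [coeff_ofMulAction]

theorem coeff_invariant {k : ℕ} (T : Finset Ω) (m : ℂ[BlockPartition Ω k])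
    (hm : ∀ g : Equiv.Perm Ω, (∀ x ∈ T, g x = x) →
      ofMulAction ℂ (Equiv.Perm Ω) (BlockPartition Ω k) g m = m) :
    ∀ g : Equiv.Perm Ω, (∀ x ∈ T, g x = x) → ∀ P, m.coeff (g • P) = m.coeff P := by
  intro g hg P
  have h2 := congrArg (fun z => z.coeff P) (hm g⁻¹ (inv_fix hg))
  simp only [coeff_ofMulAction, inv_inv] at h2
  exact h2

theorem mass_sx {k : ℕ} (T : Finset Ω) (x : Ω) (m : ℂ[BlockPartition Ω k])
    (s' : Setoid {y // y ∈ T.erase x}) :
    mass (T.erase x) (fun P => (∑ z ∈ (T.erase x)ᶜ,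
      ofMulAction ℂ (Equiv.Perm Ω) (BlockPartition Ω k) (Equiv.swap x z) m).coeff P) s' =
    ((T.erase x)ᶜ.card : ℂ) * mass (T.erase x) (fun P => m.coeff P) s' := by
  simp only [coeff_sum]
  rw [mass_sum, ← nsmul_eq_mul, ← Finset.sum_const]
  apply Finset.sum_congr rfl
  intro z hz
  rw [Finset.mem_compl] at hz
  apply mass_smul_of_fix (T.erase x) (Equiv.swap x z) _ (fun P => m.coeff P)
  intro y hy
  apply Equiv.swap_apply_of_ne_of_ne
  · exact (Finset.mem_erase.mp hy).1
  · intro h; exact hz (h ▸ hy)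

theorem card_compl_erase_ne_zero (T : Finset Ω) (x : Ω) : (((T.erase x)ᶜ.card : ℕ) : ℂ) ≠ 0 := by
  rw [Nat.cast_ne_zero]
  apply Finset.card_ne_zero_of_mem (a := x)
  rw [Finset.mem_compl]
  exact fun h => (Finset.mem_erase.mp h).1 rfl

theorem isK_theta {c d k : ℕ} (hd : 0 < d) (hΩ' : Fintype.card Ω = c * d) (T : Finset Ω)
    (hreal : ∀ P : BlockPartition Ω k, ∃ Q : BlockPartition Ω d, res T Q = res T P)
    (m : ℂ[BlockPartition Ω k])
    (hm : IsK (ofMulAction ℂ (Equiv.Perm Ω) (BlockPartition Ω k)) T m) :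
    IsK (ofMulAction ℂ (Equiv.Perm Ω) (BlockPartition Ω d)) T (thetaLin T k d m) := by
  refine ⟨fun g hg => thetaLin_fixed T k d m g hg, fun x hx => ?_⟩
  have h0 : ∀ s', mass (T.erase x) (fun P => m.coeff P) s' = 0 := by
    intro s'
    have h1 := mass_sx T x m s'
    rw [hm.2 x hx] at h1
    have h2 : mass (T.erase x) (fun P => (0 : ℂ[BlockPartition Ω k]).coeff P) s' = 0 := by
      unfold mass
      apply Finset.sum_eq_zero
      intro P _
      split_ifs
      · rfl
      · rfl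
    rw [h2] at h1
    exact (mul_eq_zero.mp h1.symm).resolve_left (card_compl_erase_ne_zero T x)
  have h1 : ∀ s', mass (T.erase x) (fun Q => (thetaLin T k d m).coeff Q) s' = 0 := by
    intro s'
    have e : mass (T.erase x) (fun Q => (thetaLin T k d m).coeff Q) s' =
        mass (T.erase x) (fun P => m.coeff P) s' := by
      rw [mass_restr (Finset.erase_subset x T),
        mass_restr (Finset.erase_subset x T) (fun P => m.coeff P)]
      apply Finset.sum_congr rfl
      intro s _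
      have h2 : (fun Q => (thetaLin T k d m).coeff Q) = thetaFun T d (fun P => m.coeff P) := by
        funext Q
        exact thetaLin_coeff T k d m Q
      rw [h2, mass_theta T hreal]
    rw [e, h0]
  ext Q
  apply eq_zero_of_mass_eq_zero hd hΩ' (T.erase x) (fun Q => (∑ z ∈ (T.erase x)ᶜ,
      ofMulAction ℂ (Equiv.Perm Ω) (BlockPartition Ω d) (Equiv.swap x z)
        (thetaLin T k d m)).coeff Q)
  · apply coeff_invariant
    intro g hg
    exact sx_fixed _ T x _ (fun g hg => thetaLin_fixed T k d m g hg) g hg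
  · intro s'
    rw [mass_sx, h1, mul_zero]

theorem thetaLin_injective_on_fixed {a b l : ℕ} (hb : 0 < b) (hΩ : Fintype.card Ω = a * b)
    (T : Finset Ω)
    (hreal : ∀ P : BlockPartition Ω b, ∃ Q : BlockPartition Ω l, res T Q = res T P)
    (m : ℂ[BlockPartition Ω b])
    (hm : ∀ g : Equiv.Perm Ω, (∀ x ∈ T, g x = x) →
      ofMulAction ℂ (Equiv.Perm Ω) (BlockPartition Ω b) g m = m)
    (h0 : thetaLin T b l m = 0) : m = 0 := by
  ext P
  apply eq_zero_of_mass_eq_zero hb hΩ T (fun P => m.coeff P) (coeff_invariant T m hm)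
  intro s
  rw [← mass_theta T hreal]
  have h2 : thetaFun T l (fun P => m.coeff P) = fun _ => 0 := by
    funext Q
    rw [← thetaLin_coeff, h0]
    rfl
  rw [h2]
  unfold mass
  apply Finset.sum_eq_zero
  intro P _
  split_ifs <;> rfl

theorem multiplicity_le_gen {a b c d : ℕ} (hb : 0 < b) (hd : 0 < d)
    (hΩ : Fintype.card Ω = a * b) (hΩ' : Fintype.card Ω = c * d) (hac : a ≤ c)
    {W : Type*} [AddCommGroup W] [Module ℂ W] (ρ : Representation ℂ (Equiv.Perm Ω) W)
    [ρ.IsIrreducible] (T : Finset Ω) (hT : T.card ≤ d) (w : W) (hw : w ≠ 0)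
    (hfix : ∀ g : Equiv.Perm Ω, (∀ x ∈ T, g x = x) → ρ g w = w) :
    Module.finrank ℂ (IntertwiningMap ρ (ofMulAction ℂ (Equiv.Perm Ω) (BlockPartition Ω b))) ≤
    Module.finrank ℂ (IntertwiningMap ρ (ofMulAction ℂ (Equiv.Perm Ω) (BlockPartition Ω d))) := by
  obtain ⟨T', hT', ⟨k₀, hk₀, hk₀fix⟩, hmin⟩ := exists_minimal_support ρ T ⟨w, hw, hfix⟩
  have hT'card : T'.card ≤ d := (Finset.card_le_card hT').trans hT
  have hK : IsK ρ T' k₀ := isK_of_minimal ρ T' k₀ hk₀fix hmin
  have hreal := exists_same_res hb hΩ hΩ' hac T' hT'card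
  set π₁ := ofMulAction ℂ (Equiv.Perm Ω) (BlockPartition Ω b) with hπ₁
  set π₂ := ofMulAction ℂ (Equiv.Perm Ω) (BlockPartition Ω d) with hπ₂
  set θ := thetaLin T' b d with hθ
  have hzero : ∀ {k : ℕ} (φ : IntertwiningMap ρ
      (ofMulAction ℂ (Equiv.Perm Ω) (BlockPartition Ω k))), φ k₀ = 0 → φ = 0 := by
    intro k φ hφ
    rcases IsIrreducible.injective_or_eq_zero φ with h | h
    · exact absurd (h (hφ.trans (map_zero φ).symm)) hk₀
    · exact h
  let ev : ∀ k : ℕ, IntertwiningMap ρ (ofMulAction ℂ (Equiv.Perm Ω) (BlockPartition Ω k)) →ₗ[ℂ]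
        ℂ[BlockPartition Ω k] := fun k =>
      { toFun := fun φ => φ k₀
        map_add' := fun _ _ => rfl
        map_smul' := fun _ _ => rfl }
  have hev : ∀ k, Function.Injective (ev k) := by
    intro k φ φ' h
    have : (φ - φ') k₀ = 0 := by
      show φ k₀ - φ' k₀ = 0
      exact sub_eq_zero.mpr h
    exact sub_eq_zero.mp (hzero _ this)
  -- existence of the transported intertwiner
  have hlift : ∀ φ : IntertwiningMap ρ π₁, ∃ φ' : IntertwiningMap ρ π₂, φ' k₀ = θ (φ k₀) := by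
    intro φ
    have hf : IsK π₁ T' (φ k₀) := isK_map φ T' k₀ hK
    have hθf : IsK π₂ T' (θ (φ k₀)) := isK_theta hd hΩ' T' hreal _ hf
    apply exists_intertwining ρ π₂ k₀ hk₀
    intro r hr
    apply eq_zero_of_EH_eq_zero T' _ hθf.1
    intro g
    rw [EH_sum]
    have h1 : ∀ k : Equiv.Perm Ω, EH π₂ T' (g * k) (θ (φ k₀)) = θ (EH π₁ T' (g * k) (φ k₀)) :=
      fun k => EH_comm π₁ π₂ T' θ (φ k₀) hf hθf
        (fun g hg => thetaLin_equivariant T' b d _ g hg) _ (g * k) rfl
    change ∑ i, r i • EH π₂ T' (g * i) (θ (φ k₀)) = 0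
    simp only [h1]
    rw [← Finset.sum_congr rfl (fun k _ => map_smul θ (r k) _), ← map_sum, ← EH_sum]
    have h2 : ∑ k, r k • π₁ k (φ k₀) = 0 := by
      have h3 := congrArg φ hr
      rw [map_sum, map_zero] at h3
      rw [← h3]
      apply Finset.sum_congr rfl
      intro k _
      rw [map_smul, IntertwiningMap.isIntertwining]
    rw [h2]
    simp [EH]
  have hinj : Function.Injective (θ ∘ₗ ev b) := by
    intro φ φ' h
    have h1 : θ ((φ - φ') k₀) = 0 := by
      show θ (φ k₀ - φ' k₀) = 0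
      rw [map_sub]
      exact sub_eq_zero.mpr h
    have h2 : (φ - φ') k₀ = 0 :=
      thetaLin_injective_on_fixed hb hΩ T' hreal _ (isK_map (φ - φ') T' k₀ hK).1 h1
    exact sub_eq_zero.mp (hzero _ h2)
  have hrange : LinearMap.range (θ ∘ₗ ev b) ≤ LinearMap.range (ev d) := by
    rintro _ ⟨φ, rfl⟩
    obtain ⟨φ', hφ'⟩ := hlift φ
    exact ⟨φ', hφ'⟩
  rw [← LinearMap.finrank_range_of_inj hinj, ← LinearMap.finrank_range_of_inj (hev d)]
  exact Submodule.finrank_mono hrange

end Vale.Agent.P181
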